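import Vale.Agent.P208.Line

/-! The configuration inside one cell. -/

namespace Vale.Agent.P208
open Finset

variable {V : Type*} [NormedAddCommGroup V] [InnerProductSpace ℝ V]

lemma dev_nonneg (g gp : ℕ → V) (s n t : ℕ) : 0 ≤ dev g gp s n t := norm_nonneg _

lemma dev_line (g gp : ℕ → V) (s n N R z : ℕ) (hs : 0 < s) (hz : 0 < z)
    (hn : n = z * (N * R)) (D e0 : ℝ) (hD : 0 ≤ D)
    (hg : LipJ g (n * s) D 0 1) (c0 y j : ℕ) (hy : y < R * s) (hj : j < N) (Δ0 : V)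
    (h0 : ‖inc gp (n * s) (c0 / z) - Δ0‖ ≤ e0) :
    ‖g (c0 * (N * R * s) + (j * (R * s) + y)) - g (c0 * (N * R * s) + y)
        - (j : ℝ) • (((R : ℝ) / n) • Δ0)‖
      ≤ ∑ i ∈ range (N * R), dev g gp s n (c0 * (N * R) + i)
        + (2 * D * s + D * (N * R) + (N * R) * e0 / n) := by
  obtain ⟨t1, y', hy', rfl⟩ : ∃ t1 y', y' < s ∧ y = t1 * s + y' :=
    ⟨y / s, y % s, Nat.mod_lt _ hs, (Nat.div_add_mod' y s).symm⟩
  obtain ⟨t0, c', hc', rfl⟩ : ∃ t0 c', c' < z ∧ c0 = t0 * z + c' :=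
    ⟨c0 / z, c0 % z, Nat.mod_lt _ hz, (Nat.div_add_mod' c0 z).symm⟩
  rw [div_block _ _ _ hc'] at h0
  have ht1 : t1 < R := by
    by_contra hh
    have : R * s ≤ t1 * s := Nat.mul_le_mul_right _ (by omega)
    omega
  have hjR : t1 + j * R < N * R := by
    have : (j + 1) * R ≤ N * R := Nat.mul_le_mul_right _ hj
    have h2 : (j + 1) * R = j * R + R := by ring
    omega
  have hcK : c' * (N * R) + N * R ≤ n := by
    have : (c' + 1) * (N * R) ≤ z * (N * R) := Nat.mul_le_mul_right _ hc'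
    have h2 : (c' + 1) * (N * R) = c' * (N * R) + N * R := by ring
    omega
  have hnpos : 0 < n := by omega
  have hn' : (0 : ℝ) < n := by exact_mod_cast hnpos
  have he0 : 0 ≤ e0 := (norm_nonneg _).trans h0
  set u := c' * (N * R) + t1 with hu
  have eq0 : ∀ i, (t0 * z + c') * (N * R) + (t1 + i) = t0 * n + u + i := fun i => by
    rw [hu, hn]; ring
  have h1 := tele g s D 0 le_rfl (fun x : ℕ => ((x / 1 : ℕ) : ℝ))
    (fun x y h => by simp only; exact_mod_cast Nat.div_le_div_right h) (t0 * n + u) (j * R)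
    (fun i hi => by
      have := gap_le g s n 1 hs D 0 hg t0 (u + i) (by omega)
      simpa only [add_assoc] using this)
  have near : ∀ v, v < n → ‖g ((t0 * n + v) * s + y') - g ((t0 * n + v) * s)‖ ≤ D * s := by
    intro v hv
    have l1 : (v + 1) * s ≤ n * s := Nat.mul_le_mul_right _ hv
    have l2 : (v + 1) * s = v * s + s := by ring
    have e1 : (t0 * n + v) * s = t0 * (n * s) + v * s := by ring
    have := hg ((t0 * n + v) * s) ((t0 * n + v) * s + y') (by omega)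
      (by rw [e1, add_assoc, div_block _ _ _ (by omega), div_block _ _ _ (by omega)])
    refine this.trans ?_
    have : (y' : ℝ) ≤ s := by exact_mod_cast hy'.le
    push_cast
    nlinarith
  have h2 := near u (by omega)
  have h3 := near (u + j * R) (by omega)
  have h4 : ∑ i ∈ range (j * R), dev g gp s n (t0 * n + u + i)
      ≤ ∑ i ∈ range (N * R), dev g gp s n ((t0 * z + c') * (N * R) + i) := by
    have : ∑ i ∈ range (j * R), dev g gp s n (t0 * n + u + i)
        = ∑ i ∈ Ico t1 (t1 + j * R), dev g gp s n ((t0 * z + c') * (N * R) + i) := by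
      rw [Finset.sum_Ico_eq_sum_range, Nat.add_sub_cancel_left]
      exact Finset.sum_congr rfl fun i _ => by rw [eq0]
    rw [this]
    refine Finset.sum_le_sum_of_subset_of_nonneg ?_ fun i _ _ => dev_nonneg _ _ _ _ _
    intro i hi
    rw [mem_Ico] at hi
    rw [mem_range]; omega
  have h5 : ‖∑ i ∈ range (j * R), (inc g s (t0 * n + u + i) - (n : ℝ)⁻¹ • inc gp (n * s) t0)‖
      ≤ ∑ i ∈ range (j * R), dev g gp s n (t0 * n + u + i) := by
    refine (norm_sum_le _ _).trans (le_of_eq (Finset.sum_congr rfl fun i hi => ?_))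
    rw [mem_range] at hi
    rw [dev, add_assoc, div_block _ _ _ (by omega)]
  have h6 : ‖(((j * R : ℕ) : ℝ) / n) • (inc gp (n * s) t0 - Δ0)‖ ≤ (N * R) * e0 / n := by
    rw [norm_smul, Real.norm_eq_abs, abs_of_nonneg (by positivity)]
    have : ((j * R : ℕ) : ℝ) ≤ N * R := by
      have : j * R ≤ N * R := by omega
      exact_mod_cast this
    rw [div_mul_eq_mul_div]
    gcongr
  have ea : (t0 * z + c') * (N * R * s) + (j * (R * s) + (t1 * s + y'))
      = (t0 * n + (u + j * R)) * s + y' := by rw [hu, hn]; ring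
  have eb : (t0 * z + c') * (N * R * s) + (t1 * s + y') = (t0 * n + u) * s + y' := by
    rw [hu, hn]; ring
  rw [ea, eb]
  have e : g ((t0 * n + (u + j * R)) * s + y') - g ((t0 * n + u) * s + y')
        - (j : ℝ) • (((R : ℝ) / n) • Δ0)
      = (g ((t0 * n + (u + j * R)) * s + y') - g ((t0 * n + (u + j * R)) * s))
        - (g ((t0 * n + u) * s + y') - g ((t0 * n + u) * s))
        + (g ((t0 * n + u + j * R) * s) - g ((t0 * n + u) * s)
          - ∑ i ∈ range (j * R), inc g s (t0 * n + u + i))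
        + ∑ i ∈ range (j * R), (inc g s (t0 * n + u + i) - (n : ℝ)⁻¹ • inc gp (n * s) t0)
        + (((j * R : ℕ) : ℝ) / n) • (inc gp (n * s) t0 - Δ0) := by
    rw [Finset.sum_sub_distrib, Finset.sum_const, card_range, ← Nat.cast_smul_eq_nsmul ℝ,
      smul_smul, smul_smul, smul_sub, add_assoc (t0 * n) u (j * R), ← div_eq_mul_inv,
      ← mul_div_assoc]
    push_cast
    abel
  rw [e]
  refine (norm_add_le _ _).trans ?_
  refine (add_le_add (norm_add_le _ _) le_rfl).trans ?_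
  refine (add_le_add (add_le_add (norm_add_le _ _) le_rfl) le_rfl).trans ?_
  refine (add_le_add (add_le_add (add_le_add (norm_sub_le _ _) le_rfl) le_rfl) le_rfl).trans ?_
  have h7 : D * ((j * R : ℕ) : ℝ) ≤ D * (N * R) := by
    apply mul_le_mul_of_nonneg_left _ hD
    have : j * R ≤ N * R := by omega
    exact_mod_cast this
  linarith

omit [InnerProductSpace ℝ V] in
lemma slope_near (H : ℕ → ℕ → V) (S : ℕ) (D : ℝ) (hH : ∀ b, LipJ (fun a => H a b) S D 0 1)
    (a0 d t : ℕ) (h : a0 / S = (a0 + d) / S) :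
    ‖inc (H (a0 + d)) S t - inc (H a0) S t‖ ≤ 2 * D * d := by
  have h1 := hH (t * S + (S - 1)) a0 (a0 + d) (by omega) h
  have h2 := hH (t * S) a0 (a0 + d) (by omega) h
  have e : inc (H (a0 + d)) S t - inc (H a0) S t
      = (H (a0 + d) (t * S + (S - 1)) - H a0 (t * S + (S - 1)))
        - (H (a0 + d) (t * S) - H a0 (t * S)) := by
    simp only [inc]; abel
  rw [e]
  refine (norm_sub_le _ _).trans ?_
  push_cast at h1 h2
  linarith

def Pack (V : Type*) [NormedAddCommGroup V] (N : ℕ) (C : ℝ) : Prop :=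
  ¬ ∃ φ : ℕ → V, ∀ i < N, ∀ j < N, (i ≠ j → 1 / 2 ≤ ‖φ i - φ j‖) ∧ ‖φ i - φ j‖ ≤ C

lemma config (N : ℕ) (C w : ℝ) (hw : 0 < w) (hP : Pack V N (C + 1))
    (p q : ℕ → ℕ → V) (Pa Pb : V)
    (h1 : ∀ i < N, ∀ j < N, ‖p i j - p i 0 - (j : ℝ) • Pb‖ ≤ w / 10)
    (h2 : ∀ i < N, ∀ j < N, ‖q i j - q 0 j - (i : ℝ) • Pa‖ ≤ w / 10)
    (h3 : ∀ i < N, ‖p i i - q i i‖ ≤ w / 10)
    (h4 : ∀ i < N, ∀ j < N, i ≠ j → w ≤ ‖p i j - q i j‖)
    (h5 : ∀ i < N, ∀ j < N, ‖p i j - q i j‖ ≤ C * w) : False := by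
  apply hP
  set φ : ℕ → V := fun i => p i 0 - (i : ℝ) • Pa with hφ
  set ψ : ℕ → V := fun j => q 0 j - (j : ℝ) • Pb with hψ
  have k : ∀ i < N, ∀ j < N, ‖(p i j - q i j) - (φ i - ψ j)‖ ≤ w / 5 := by
    intro i hi j hj
    have e : (p i j - q i j) - (φ i - ψ j)
        = (p i j - p i 0 - (j : ℝ) • Pb) - (q i j - q 0 j - (i : ℝ) • Pa) := by
      simp only [hφ, hψ]; abel
    rw [e]
    have := h1 i hi j hj
    have := h2 i hi j hj
    have := norm_sub_le (p i j - p i 0 - (j : ℝ) • Pb) (q i j - q 0 j - (i : ℝ) • Pa)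
    linarith
  refine ⟨fun i => w⁻¹ • φ i, fun i hi j hj => ?_⟩
  rw [← smul_sub, norm_smul, Real.norm_eq_abs, abs_of_pos (inv_pos.2 hw), ← div_eq_inv_mul,
    le_div_iff₀ hw, div_le_iff₀ hw]
  have a1 := abs_le.1 ((abs_norm_sub_norm_le _ _).trans (k i hi j hj))
  have a2 := abs_le.1 ((abs_norm_sub_norm_le _ _).trans (k j hj j hj))
  have a3 := h3 j hj
  have e : φ i - φ j = (φ i - ψ j) - (φ j - ψ j) := by abel
  have a4 := abs_le.1 (abs_norm_sub_norm_le (φ i - ψ j) (φ j - ψ j))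
  have a5 := norm_sub_le (φ i - ψ j) (φ j - ψ j)
  rw [← e] at a4 a5
  refine ⟨fun hij => ?_, ?_⟩
  · have := h4 i hi j hj hij
    linarith [a1.1, a1.2, a2.1, a2.2, a4.1, a4.2]
  · have := h5 i hi j hj
    linarith [a1.1, a1.2, a2.1, a2.2, a4.1, a4.2]

/-- If for every offset some line has a large sum of deviations, the squares add up. -/
lemma cs_lower (N r K : ℕ) (hK : 0 < K) (δ : ℝ) (hδ : 0 ≤ δ) (f : ℕ → ℕ → ℕ → ℝ)
    (h : ∀ x < r, ∃ i < N, δ ≤ ∑ k ∈ range K, f i x k) :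
    r * δ ^ 2 / K ≤ ∑ i ∈ range N, ∑ x ∈ range r, ∑ k ∈ range K, f i x k ^ 2 := by
  have hK' : (0 : ℝ) < K := by exact_mod_cast hK
  rw [Finset.sum_comm]
  have : ∀ x ∈ range r, δ ^ 2 / K ≤ ∑ i ∈ range N, ∑ k ∈ range K, f i x k ^ 2 := by
    intro x hx
    obtain ⟨i, hi, h1⟩ := h x (mem_range.1 hx)
    have h2 : (∑ k ∈ range K, f i x k) ^ 2 ≤ K * ∑ k ∈ range K, f i x k ^ 2 := by
      simpa using sq_sum_le_card_mul_sum_sq (s := range K) (f := f i x)
    have h3 : δ ^ 2 ≤ (∑ k ∈ range K, f i x k) ^ 2 := pow_le_pow_left₀ hδ h1 2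
    have h4 : ∑ k ∈ range K, f i x k ^ 2 ≤ ∑ i ∈ range N, ∑ k ∈ range K, f i x k ^ 2 :=
      Finset.single_le_sum (f := fun i => ∑ k ∈ range K, f i x k ^ 2)
        (fun i _ => by positivity) (mem_range.2 hi)
    rw [div_le_iff₀ hK']
    nlinarith
  have h5 := Finset.sum_le_sum this
  simp only [Finset.sum_const, card_range, nsmul_eq_mul] at h5
  rw [mul_div_assoc]
  exact h5

end Vale.Agent.P208
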