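import Mathlib

namespace Vale.Agent.P208

/-- A metric space is doubling: for some finite `lam`, every ball (even closed) is covered by at
most `lam` (even open) balls of half the radius with centers in the space. -/
def IsDoubling (X : Type*) [MetricSpace X] : Prop :=
  ∃ lam : ℕ, ∀ (x : X) (r : ℝ), 0 < r →
    ∃ S : Finset X, S.card ≤ lam ∧ Metric.closedBall x r ⊆ ⋃ y ∈ S, Metric.ball y (r / 2)

end Vale.Agent.P208
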