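import Mathlib

/-! The potential argument and the choice of parameters. -/

namespace Vale.Agent.P208
open Finset

lemma game (D c γ : ℝ) (q : ℕ → ℝ) (L T : ℕ) (P : ℕ → ℕ → ℝ → ℝ → Prop)
    (hc : 0 < c) (hγ : 0 ≤ γ) (hL : 2 * D ^ 2 ≤ c * L) (hγc : γ ≤ c / 2)
    (hq : ∀ l ≤ L, (∑ i ∈ range l, (4 * D ^ 2 / q i + γ + γ)) + γ + γ ≤ c / q l ^ 2)
    (hq0 : ∀ l, 1 ≤ q l) (hT : D ^ 2 + c < T * γ)
    (h0 : ∃ x y, P 0 0 x y)
    (hb : ∀ m ≤ T, ∀ l x y, P m l x y → 0 ≤ x ∧ x ≤ D ^ 2 ∧ 0 ≤ y ∧ y ≤ D ^ 2)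
    (hs : ∀ m < T, ∀ l x y, P m l x y →
      (∃ x' y', P (m + 1) (l + 1) x' y' ∧ x - 4 * D ^ 2 / q l - γ ≤ x' ∧ y + c - γ ≤ y') ∨
      (∃ x' y', P (m + 1) 0 x' y' ∧ x + c / q l ^ 2 - γ ≤ x')) : False := by
  have hl : ∀ (l : ℕ) (y : ℝ), y ≤ D ^ 2 → l * (c / 2) ≤ y → l ≤ L := by
    intro l y h1 h2
    have : (l : ℝ) * c ≤ L * c := by linarith
    exact_mod_cast le_of_mul_le_mul_right this hc
  have key : ∀ m ≤ T, ∃ l x y, P m l x y ∧ l * (c / 2) ≤ y ∧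
      m * γ ≤ x + ∑ i ∈ range l, (4 * D ^ 2 / q i + γ + γ) := by
    intro m
    induction m with
    | zero =>
      intro _
      obtain ⟨x, y, h⟩ := h0
      have := hb 0 (Nat.zero_le _) 0 x y h
      exact ⟨0, x, y, h, by simpa using this.2.2.1, by simpa using this.1⟩
    | succ m ih =>
      intro hm
      obtain ⟨l, x, y, h, h1, h2⟩ := ih (by omega)
      have hb' := hb m (by omega) l x y h
      rcases hs m (by omega) l x y h with ⟨x', y', h', h3, h4⟩ | ⟨x', y', h', h3⟩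
      · refine ⟨l + 1, x', y', h', ?_, ?_⟩
        · push_cast; linarith
        · rw [Finset.sum_range_succ]; push_cast; linarith
      · have := hq l (hl l y hb'.2.2.2 h1)
        refine ⟨0, x', y', h', ?_, ?_⟩
        · simpa using (hb (m + 1) hm 0 x' y' h').2.2.1
        · simp only [range_zero, sum_empty]; push_cast; linarith
  obtain ⟨l, x, y, h, h1, h2⟩ := key T le_rfl
  have hb' := hb T le_rfl l x y h
  have := hq l (hl l y hb'.2.2.2 h1)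
  have h3 : c / q l ^ 2 ≤ c := div_le_self hc.le (one_le_pow₀ (hq0 l))
  linarith [hb'.2.1]

def Win (N : ℕ) (q : ℕ → ℕ) (M T : ℕ) : Prop :=
  ∀ P : ℕ → ℕ → ℝ → ℝ → Prop, (∃ x y, P 0 0 x y) →
    (∀ m ≤ T, ∀ l x y, P m l x y → 0 ≤ x ∧ x ≤ (N : ℝ) ^ 2 ∧ 0 ≤ y ∧ y ≤ (N : ℝ) ^ 2) →
    (∀ m < T, ∀ l x y, P m l x y →
      (∃ x' y', P (m + 1) (l + 1) x' y' ∧ x - 4 * (N : ℝ) ^ 2 / q l - 10 * (N : ℝ) ^ 2 / M ≤ x' ∧
        y + 1 / (800 * (N : ℝ) ^ 3) - 10 * (N : ℝ) ^ 2 / M ≤ y') ∨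
      (∃ x' y', P (m + 1) 0 x' y' ∧
        x + 1 / (800 * (N : ℝ) ^ 3) / (q l : ℝ) ^ 2 - 10 * (N : ℝ) ^ 2 / M ≤ x')) → False

lemma exists_params (N : ℕ) (hN : 0 < N) : ∃ (q : ℕ → ℕ) (M T : ℕ),
    (∀ l, 0 < q l ∧ (∃ z, 0 < z ∧ M = N * q l * z) ∧ 200 * N * N ^ 2 * q l ≤ M) ∧ Win N q M T := by
  obtain ⟨L, hL⟩ : ∃ L, L = 1600 * N ^ 5 := ⟨_, rfl⟩
  obtain ⟨K, hK⟩ : ∃ K, K = 6400 * N ^ 5 * L := ⟨_, rfl⟩
  have hL0 : 0 < L := by rw [hL]; positivity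
  have hK0 : 0 < K := by rw [hK]; positivity
  obtain ⟨Q, hQ⟩ : ∃ Q, Q = K ^ 3 ^ L := ⟨_, rfl⟩
  have hQ0 : 0 < Q := by rw [hQ]; positivity
  have hdvd : ∀ l, K ^ 3 ^ (L - l) ∣ Q := fun l => by
    rw [hQ]; exact pow_dvd_pow _ (Nat.pow_le_pow_right (by norm_num) (Nat.sub_le _ _))
  have hle : ∀ l, K ^ 3 ^ (L - l) ≤ Q := fun l => Nat.le_of_dvd hQ0 (hdvd l)
  refine ⟨fun l => K ^ 3 ^ (L - l), 32000 * N ^ 5 * (L + 1) * Q ^ 2,
    (N ^ 2 + 2) * (3200 * N ^ 3 * (L + 1) * Q ^ 2), fun l => ⟨by positivity, ?_, ?_⟩, ?_⟩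
  · obtain ⟨z, hz⟩ := hdvd l
    have hz0 : 0 < z := Nat.pos_of_ne_zero (by rintro rfl; simp at hz; omega)
    refine ⟨32000 * N ^ 4 * (L + 1) * Q * z, by positivity, ?_⟩
    have : Q ^ 2 = Q * (K ^ 3 ^ (L - l) * z) := by rw [← hz]; ring
    rw [this]; ring
  · have h1 := hle l
    have h2 : Q ≤ Q ^ 2 := by nlinarith
    have h3 : N * N ^ 2 ≤ N ^ 5 := by
      rw [← pow_succ']; exact Nat.pow_le_pow_right hN (by norm_num)
    calc 200 * N * N ^ 2 * K ^ 3 ^ (L - l) = 200 * (N * N ^ 2) * 1 * K ^ 3 ^ (L - l) := by ring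
      _ ≤ 32000 * N ^ 5 * (L + 1) * Q ^ 2 :=
        Nat.mul_le_mul (Nat.mul_le_mul (Nat.mul_le_mul (by norm_num) h3) (by omega)) (h1.trans h2)
  · intro P h0 hb hs
    have hN' : (1 : ℝ) ≤ N := by exact_mod_cast hN
    have hQ' : (1 : ℝ) ≤ Q := by exact_mod_cast hQ0
    have hL' : (1 : ℝ) ≤ L := by exact_mod_cast hL0
    have hK' : (1 : ℝ) ≤ K := by exact_mod_cast hK0
    have hLr : (L : ℝ) = 1600 * N ^ 5 := by exact_mod_cast hL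
    have hKr : (K : ℝ) = 6400 * N ^ 5 * L := by exact_mod_cast hK
    have hγ : 10 * (N : ℝ) ^ 2 / ((32000 * N ^ 5 * (L + 1) * Q ^ 2 : ℕ) : ℝ)
        = 1 / (800 * (N : ℝ) ^ 3) / (4 * (L + 1) * Q ^ 2) := by
      push_cast; field_simp; norm_num
    rw [hγ] at hs
    set c : ℝ := 1 / (800 * (N : ℝ) ^ 3) with hc
    have hc0 : 0 < c := by positivity
    refine game N c (c / (4 * (L + 1) * Q ^ 2)) (fun l => ((K ^ 3 ^ (L - l) : ℕ) : ℝ)) L _ P hc0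
      (by positivity) ?_ ?_ ?_ ?_ ?_ h0 hb hs
    · rw [hLr, hc]; apply le_of_eq; field_simp; norm_num
    · apply div_le_div_of_nonneg_left hc0.le (by norm_num)
      nlinarith [one_le_pow₀ (n := 2) hQ']
    · intro l hl
      have hq1 : (1 : ℝ) ≤ ((K ^ 3 ^ (L - l) : ℕ) : ℝ) := by
        exact_mod_cast Nat.one_le_pow _ _ hK0
      have hq2 : ((K ^ 3 ^ (L - l) : ℕ) : ℝ) ≤ Q := by exact_mod_cast hle l
      set u : ℝ := ((K ^ 3 ^ (L - l) : ℕ) : ℝ) with hu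
      have t1 : ∀ i ∈ range l, 4 * (N : ℝ) ^ 2 / ((K ^ 3 ^ (L - i) : ℕ) : ℝ)
          + c / (4 * (L + 1) * Q ^ 2) + c / (4 * (L + 1) * Q ^ 2)
          ≤ 4 * (N : ℝ) ^ 2 / (K * u ^ 2) + 2 * (c / (4 * (L + 1) * Q ^ 2)) := by
        intro i hi
        rw [mem_range] at hi
        have h1 : K * (K ^ 3 ^ (L - l)) ^ 2 ≤ K ^ 3 ^ (L - i) := by
          rw [← pow_mul, ← pow_succ']
          apply Nat.pow_le_pow_right hK0
          have h2 : 3 ^ (L - l + 1) ≤ 3 ^ (L - i) := Nat.pow_le_pow_right (by norm_num) (by omega)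
          have h3 : 1 ≤ 3 ^ (L - l) := Nat.one_le_pow _ _ (by norm_num)
          rw [pow_succ] at h2
          omega
        have h2 : (K : ℝ) * u ^ 2 ≤ ((K ^ 3 ^ (L - i) : ℕ) : ℝ) := by
          rw [hu]; exact_mod_cast h1
        have : 4 * (N : ℝ) ^ 2 / ((K ^ 3 ^ (L - i) : ℕ) : ℝ) ≤ 4 * (N : ℝ) ^ 2 / (K * u ^ 2) := by
          gcongr
        linarith
      have t2 := Finset.sum_le_sum t1
      simp only [Finset.sum_const, card_range, nsmul_eq_mul] at t2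
      have hl' : (l : ℝ) ≤ L := by exact_mod_cast hl
      have t3 : (l : ℝ) * (4 * (N : ℝ) ^ 2 / (K * u ^ 2)) ≤ c / u ^ 2 / 2 := by
        calc (l : ℝ) * (4 * (N : ℝ) ^ 2 / (K * u ^ 2)) ≤ L * (4 * (N : ℝ) ^ 2 / (K * u ^ 2)) := by
              gcongr
          _ = _ := by rw [hKr, hc]; field_simp; norm_num
      have t4 : ((l : ℝ) + 1) * (2 * (c / (4 * (L + 1) * Q ^ 2))) ≤ c / u ^ 2 / 2 := by
        calc ((l : ℝ) + 1) * (2 * (c / (4 * (L + 1) * Q ^ 2)))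
            ≤ (L + 1) * (2 * (c / (4 * (L + 1) * u ^ 2))) := by gcongr
          _ = _ := by field_simp; norm_num
      nlinarith
    · intro l
      exact_mod_cast Nat.one_le_pow _ _ hK0
    · have : (((N ^ 2 + 2) * (3200 * N ^ 3 * (L + 1) * Q ^ 2) : ℕ) : ℝ) * (c / (4 * (L + 1) * Q ^ 2))
          = N ^ 2 + 2 := by
        rw [hc]; push_cast; field_simp; norm_num
      rw [this]
      have : c ≤ 1 := by
        rw [hc, div_le_one (by positivity)]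
        nlinarith [one_le_pow₀ (n := 3) hN']
      linarith

end Vale.Agent.P208
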