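import Vale.Agent.P208.Cell

/-! One step of the energy game. -/

namespace Vale.Agent.P208
open Finset

variable {V : Type*} [NormedAddCommGroup V] [InnerProductSpace ℝ V]

lemma same_block (c d K z : ℕ) (hd : d < K) : c * K / (z * K) = (c * K + d) / (z * K) := by
  rw [mul_comm z K, ← Nat.div_div_eq_div_mul, ← Nat.div_div_eq_div_mul, div_block _ _ _ hd,
    Nat.mul_div_cancel _ (by omega)]

lemma digit_eq (c i x N r : ℕ) (hi : i < N) (hx : x < r) :
    (c * (N * r) + (i * r + x)) / r % N = i := by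
  have : c * (N * r) + (i * r + x) = (c * N + i) * r + x := by ring
  rw [this, div_block _ _ _ hx, Nat.mul_add_mod_self_right, Nat.mod_eq_of_lt hi]

lemma lt_cell (i x N r : ℕ) (hi : i < N) (hx : x < r) : i * r + x < N * r := by
  have : (i + 1) * r ≤ N * r := Nat.mul_le_mul_right _ hi
  have h2 : (i + 1) * r = i * r + r := by ring
  omega

/-- deviation of a line of the child from the affine map with the slope at the cell corner -/
lemma dev_cell (H Hc : ℕ → ℕ → V) (s n N R z R' z' : ℕ) (hs : 0 < s) (hz : 0 < z)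
    (hn : n = z * (N * R)) (hn' : n = z' * (N * R')) (D : ℝ) (hD : 0 ≤ D)
    (hc : ∀ a, LipJ (Hc a) (n * s) D 0 1) (hH : ∀ b, LipJ (fun a => H a b) (n * s) D 0 1)
    (ca cb i x j y : ℕ) (hi : i < N) (hx : x < R' * s) (hj : j < N) (hy : y < R * s) :
    ‖Hc (ca * (N * R' * s) + (i * (R' * s) + x)) (cb * (N * R * s) + (j * (R * s) + y))
        - Hc (ca * (N * R' * s) + (i * (R' * s) + x)) (cb * (N * R * s) + (0 * (R * s) + y))
        - (j : ℝ) • (((R : ℝ) / n) • inc (H (ca * (N * R' * s))) (n * s) (cb / z))‖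
      ≤ ∑ k ∈ range (N * R), dev (Hc (ca * (N * R' * s) + (i * (R' * s) + x)))
          (H (ca * (N * R' * s) + (i * (R' * s) + x))) s n (cb * (N * R) + k)
        + (2 * D * s + D * (N * R) + (N * R) * (2 * D * (N * R' * s)) / n) := by
  have hd : i * (R' * s) + x < N * R' * s := by
    rw [mul_assoc N]; exact lt_cell _ _ _ _ hi hx
  have h1 := slope_near H (n * s) D hH (ca * (N * R' * s)) (i * (R' * s) + x) (cb / z)
    (by
      have : n * s = z' * (N * R' * s) := by rw [hn']; ring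
      rw [this]; exact same_block _ _ _ _ hd)
  have h2 : 2 * D * ((i * (R' * s) + x : ℕ) : ℝ) ≤ 2 * D * (N * R' * s) := by
    apply mul_le_mul_of_nonneg_left _ (by positivity)
    exact_mod_cast hd.le
  rw [zero_mul, zero_add]
  exact dev_line _ _ s n N R z hs hz hn D _ hD (hc _) cb y j hy hj _ (h1.trans h2)

structure StepData (G Gt Gf : ℕ → ℕ → V) (s M q N : ℕ) (D C : ℝ) : Prop where
  hGa : ∀ b, LipJ (fun a => G a b) (M * M * s) D 0 1
  hGb : ∀ a, LipJ (G a) (M * M * s) D 0 1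
  hTa : ∀ b, LipJ (fun a => Gt a b) (M * M * s) D (2 * D * (M * s)) (q * M * s)
  hTb : ∀ a, LipJ (Gt a) (M * M * s) D 0 1
  hFa : ∀ b, LipJ (fun a => Gf a b) (M * M * s) D 0 1
  hct : ∀ a b, ‖Gt a b - G a b‖ ≤ 2 * D * (M * s)
  hcf : ∀ a b, ‖Gf a b - G a b‖ ≤ 2 * D * (M * s)
  hx1 : ∀ a b, a / (q * M * s) % N = b / (M * s) % N → ‖Gt a b - Gf a b‖ ≤ (M * s) / 10
  hx2 : ∀ a b, a / (q * M * s) % N ≠ b / (M * s) % N → (M * s : ℝ) ≤ ‖Gt a b - Gf a b‖
  hx3 : ∀ a b, ‖Gt a b - Gf a b‖ ≤ C * (M * s)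

lemma cell_ineq {G Gt Gf : ℕ → ℕ → V} {s M q N : ℕ} {D C : ℝ} (H : StepData G Gt Gf s M q N D C)
    (z : ℕ) (hM : M = N * q * z) (hN : 0 < N) (hq : 0 < q) (hz : 0 < z) (hD : 1 ≤ D)
    (hbig : 200 * D * N ^ 2 * q ≤ M) (hs : M ≤ s) (hP : Pack V N (C + 1)) (ca cb : ℕ) :
    (q * M * s) * (M * s) * s / (400 * N)
      ≤ ∑ i ∈ range N, ∑ x ∈ range (q * M * s), ∑ k ∈ range (N * M),
          dev (Gt (ca * (N * (q * M) * s) + (i * (q * M * s) + x)))
            (G (ca * (N * (q * M) * s) + (i * (q * M * s) + x))) s (M * M) (cb * (N * M) + k) ^ 2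
        + (q : ℝ) ^ 2 * ∑ j ∈ range N, ∑ y ∈ range (M * s), ∑ k ∈ range (N * (q * M)),
          dev (fun a => Gf a (cb * (N * M * s) + (j * (M * s) + y)))
            (fun a => G a (cb * (N * M * s) + (j * (M * s) + y))) s (M * M)
              (ca * (N * (q * M)) + k) ^ 2 := by
  have hM0 : 0 < M := by rw [hM]; positivity
  have hs0 : 0 < s := by omega
  have hM' : (0 : ℝ) < M := by exact_mod_cast hM0
  have hs' : (0 : ℝ) < s := by exact_mod_cast hs0
  have hN' : (1 : ℝ) ≤ N := by exact_mod_cast hN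
  have hq' : (1 : ℝ) ≤ q := by exact_mod_cast hq
  have hMs : (M : ℝ) ≤ s := by exact_mod_cast hs
  have hD0 : 0 ≤ D := by linarith
  by_cases h1 : ∀ x < q * M * s, ∃ i < N, (M * s : ℝ) / 20 ≤ ∑ k ∈ range (N * M),
      dev (Gt (ca * (N * (q * M) * s) + (i * (q * M * s) + x)))
            (G (ca * (N * (q * M) * s) + (i * (q * M * s) + x))) s (M * M) (cb * (N * M) + k)
  · have := cs_lower N (q * M * s) (N * M) (by positivity) _ (by positivity) _ h1
    refine le_add_of_le_of_nonneg (le_trans (le_of_eq ?_) this) (by positivity)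
    push_cast
    field_simp
    ring
  by_cases h2 : ∀ y < M * s, ∃ j < N, (M * s : ℝ) / 20 ≤ ∑ k ∈ range (N * (q * M)),
      dev (fun a => Gf a (cb * (N * M * s) + (j * (M * s) + y)))
            (fun a => G a (cb * (N * M * s) + (j * (M * s) + y))) s (M * M)
              (ca * (N * (q * M)) + k)
  · have := cs_lower N (M * s) (N * (q * M)) (by positivity) _ (by positivity) _ h2
    refine le_add_of_nonneg_of_le (by positivity) ?_
    refine le_trans (le_of_eq ?_) (mul_le_mul_of_nonneg_left this (by positivity))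
    push_cast
    field_simp
    ring
  exfalso
  push Not at h1 h2
  obtain ⟨x, hx, h1⟩ := h1
  obtain ⟨y, hy, h2⟩ := h2
  have hn1 : M * M = (q * z) * (N * M) := by rw [hM]; ring
  have hn2 : M * M = z * (N * (q * M)) := by rw [hM]; ring
  have b1 : 2 * D * s ≤ M * s / 100 := by
    have : 200 * D ≤ M := by
      have : (1 : ℝ) ≤ N ^ 2 * q := by nlinarith [one_le_pow₀ (n := 2) hN']
      nlinarith
    nlinarith
  have b2 : D * (N * (q * M)) ≤ M * s / 200 := by
    have h3 : D * N * q ≤ D * N ^ 2 * q := by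
      have : (N : ℝ) ≤ N ^ 2 := by nlinarith
      gcongr
    have : 200 * (D * N * q) ≤ s := by nlinarith
    nlinarith
  have b3 : D * (N * M) ≤ D * (N * (q * M)) := by
    have : (M : ℝ) ≤ q * M := by nlinarith
    gcongr
  have b4 : (N * M : ℝ) * (2 * D * (N * (q * M) * s)) / (M * M) ≤ M * s / 100 := by
    have : (N * M : ℝ) * (2 * D * (N * (q * M) * s)) / (M * M) = 200 * D * N ^ 2 * q * s / 100 := by
      field_simp; ring
    rw [this]; gcongr
  have b5 : (N * (q * M) : ℝ) * (2 * D * (N * M * s)) / (M * M) ≤ M * s / 100 := by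
    refine le_trans (le_of_eq ?_) b4; ring
  refine config N C (M * s) (by positivity) hP
    (fun i j => Gt (ca * (N * (q * M) * s) + (i * (q * M * s) + x))
      (cb * (N * M * s) + (j * (M * s) + y)))
    (fun i j => Gf (ca * (N * (q * M) * s) + (i * (q * M * s) + x))
      (cb * (N * M * s) + (j * (M * s) + y)))
    ((((q * M : ℕ) : ℝ) / (M * M : ℕ)) •
      inc (fun a => G a (cb * (N * M * s))) (M * M * s) (ca / z))
    (((M : ℝ) / (M * M : ℕ)) • inc (G (ca * (N * (q * M) * s))) (M * M * s) (cb / (q * z)))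
    ?_ ?_ ?_ ?_ ?_
  · intro i hi j hj
    have := dev_cell G Gt s (M * M) N M (q * z) (q * M) z hs0 (by positivity) hn1 hn2 D hD0
      H.hTb H.hGa ca cb i x j y hi hx hj hy
    refine this.trans ?_
    have := h1 i hi
    push_cast
    nlinarith
  · intro i hi j hj
    have := dev_cell (fun b a => G a b) (fun b a => Gf a b) s (M * M) N (q * M) z M (q * z) hs0 hz
      hn2 hn1 D hD0 H.hFa H.hGb cb ca j y i x hj hy hi hx
    refine this.trans ?_
    have := h2 j hj
    push_cast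
    nlinarith
  · intro i hi
    apply H.hx1
    rw [mul_assoc N, mul_assoc N, digit_eq _ _ _ _ _ hi hx, digit_eq _ _ _ _ _ hi hy]
  · intro i hi j hj hij
    apply H.hx2
    rw [mul_assoc N, mul_assoc N, digit_eq _ _ _ _ _ hi hx, digit_eq _ _ _ _ _ hj hy]
    exact hij
  · intro i _ j _
    exact H.hx3 _ _

noncomputable def Eb (G : ℕ → ℕ → V) (s W : ℕ) : ℝ := (∑ a ∈ range W, En (G a) s W) / W

noncomputable def Ea (G : ℕ → ℕ → V) (s W : ℕ) : ℝ := Eb (fun b a => G a b) s W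

noncomputable def Vb (Gc G : ℕ → ℕ → V) (s n W : ℕ) : ℝ :=
  (∑ a ∈ range W, Var (Gc a) (G a) s n W) / W

lemma var_ineq {G Gt Gf : ℕ → ℕ → V} {s M q N : ℕ} {D C : ℝ} (H : StepData G Gt Gf s M q N D C)
    (z : ℕ) (hM : M = N * q * z) (hN : 0 < N) (hq : 0 < q) (hz : 0 < z) (hD : 1 ≤ D)
    (hbig : 200 * D * N ^ 2 * q ≤ M) (hs : M ≤ s) (hP : Pack V N (C + 1)) (B : ℕ) (hB : 0 < B) :
    1 / (400 * (N : ℝ) ^ 3) ≤ Vb Gt G s (M * M) (B * (M * M * s))
      + (q : ℝ) ^ 2 * Vb (fun b a => Gf a b) (fun b a => G a b) s (M * M) (B * (M * M * s)) := by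
  have hM0 : 0 < M := by rw [hM]; positivity
  have hs0 : 0 < s := by omega
  have hM' : (0 : ℝ) < M := by exact_mod_cast hM0
  have hs' : (0 : ℝ) < s := by exact_mod_cast hs0
  have hN' : (0 : ℝ) < N := by exact_mod_cast hN
  have hq' : (0 : ℝ) < q := by exact_mod_cast hq
  have hz' : (0 : ℝ) < z := by exact_mod_cast hz
  have hB' : (0 : ℝ) < B := by exact_mod_cast hB
  have hMr : (M : ℝ) = N * q * z := by exact_mod_cast hM
  have w1 : B * (M * M * s) = (B * z) * (N * (q * M * s)) := by rw [hM]; ring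
  have w2 : B * (M * M * s) = (B * (q * z)) * (N * (M * s)) := by rw [hM]; ring
  have w3 : B * (M * M * s) / s = (B * (q * z)) * (N * M) := by
    rw [w2, ← mul_assoc N, ← mul_assoc, Nat.mul_div_cancel _ hs0]
  have w4 : B * (M * M * s) / s = (B * z) * (N * (q * M)) := by
    rw [w1, ← mul_assoc N, ← mul_assoc, Nat.mul_div_cancel _ hs0]
  have e1 : ∑ a ∈ range (B * (M * M * s)), ∑ t ∈ range (B * (M * M * s) / s),
        dev (Gt a) (G a) s (M * M) t ^ 2
      = ∑ ca ∈ range (B * z), ∑ cb ∈ range (B * (q * z)),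
        ∑ i ∈ range N, ∑ x ∈ range (q * M * s), ∑ k ∈ range (N * M),
          dev (Gt (ca * (N * (q * M) * s) + (i * (q * M * s) + x)))
            (G (ca * (N * (q * M) * s) + (i * (q * M * s) + x))) s (M * M)
              (cb * (N * M) + k) ^ 2 := by
    rw [w3, w1, sum_range_mul]
    refine Finset.sum_congr rfl fun ca _ => ?_
    rw [sum_range_mul]
    simp only [sum_range_mul _ (B * (q * z)) (N * M), mul_assoc N (q * M) s]
    symm
    rw [Finset.sum_comm]
    refine Finset.sum_congr rfl fun i _ => ?_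
    rw [Finset.sum_comm]
  have e2 : ∑ b ∈ range (B * (M * M * s)), ∑ t ∈ range (B * (M * M * s) / s),
        dev (fun a => Gf a b) (fun a => G a b) s (M * M) t ^ 2
      = ∑ ca ∈ range (B * z), ∑ cb ∈ range (B * (q * z)),
        ∑ j ∈ range N, ∑ y ∈ range (M * s), ∑ k ∈ range (N * (q * M)),
          dev (fun a => Gf a (cb * (N * M * s) + (j * (M * s) + y)))
            (fun a => G a (cb * (N * M * s) + (j * (M * s) + y))) s (M * M)
              (ca * (N * (q * M)) + k) ^ 2 := by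
    rw [w4, w2, sum_range_mul, Finset.sum_comm (s := range (B * z))]
    refine Finset.sum_congr rfl fun cb _ => ?_
    rw [sum_range_mul]
    simp only [sum_range_mul _ (B * z) (N * (q * M)), mul_assoc N M s]
    symm
    rw [Finset.sum_comm]
    refine Finset.sum_congr rfl fun i _ => ?_
    rw [Finset.sum_comm]
  have hsum := Finset.sum_le_sum (s := range (B * z)) fun ca _ =>
    Finset.sum_le_sum (s := range (B * (q * z))) fun cb _ =>
      cell_ineq H z hM hN hq hz hD hbig hs hP ca cb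
  simp only [Finset.sum_add_distrib, ← Finset.mul_sum] at hsum
  rw [← e1, ← e2] at hsum
  simp only [Finset.sum_const, card_range, nsmul_eq_mul] at hsum
  unfold Vb Var
  simp only [← Finset.sum_div]
  rw [div_div, div_div, ← mul_div_assoc, ← add_div, le_div_iff₀ (by positivity)]
  refine le_trans (le_of_eq ?_) hsum
  push_cast
  rw [hMr]
  field_simp

omit [InnerProductSpace ℝ V] in
lemma Eb_nonneg (G : ℕ → ℕ → V) (s W : ℕ) : 0 ≤ Eb G s W :=
  div_nonneg (Finset.sum_nonneg fun _ _ => En_nonneg _ _ _) (by positivity)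

lemma Vb_nonneg (Gc G : ℕ → ℕ → V) (s n W : ℕ) : 0 ≤ Vb Gc G s n W :=
  div_nonneg (Finset.sum_nonneg fun _ _ => Var_nonneg _ _ _ _ _) (by positivity)

omit [InnerProductSpace ℝ V] in
lemma Eb_le (G : ℕ → ℕ → V) (S B : ℕ) (hS : 0 < S) (hB : 0 < B) (D : ℝ) (hD : 0 ≤ D)
    (hG : ∀ a, LipJ (G a) S D 0 1) : Eb G S (B * S) ≤ D ^ 2 := by
  unfold Eb
  rw [div_le_iff₀ (by positivity)]
  calc _ ≤ ∑ a ∈ range (B * S), D ^ 2 :=
        Finset.sum_le_sum fun a _ => En_le (G a) S B 1 hS hB D hD (hG a)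
    _ = _ := by simp; ring

lemma lines_ineq (Gc G : ℕ → ℕ → V) (s n r z B : ℕ) (hs : 0 < s) (hn : 0 < n) (hr : 0 < r)
    (hB : 0 < B) (hz : n * s = z * r)
    (D J C : ℝ) (hD : 0 ≤ D) (hJ : 0 ≤ J)
    (hg : ∀ a, LipJ (Gc a) (n * s) D J r) (hp : ∀ a, LipJ (G a) (n * s) D 0 1)
    (hc : ∀ a x, ‖Gc a x - G a x‖ ≤ C) :
    Eb G (n * s) (B * (n * s)) + Vb Gc G s n (B * (n * s))
      - 2 * D * (D / s + J / r + 2 * C / (n * s)) ≤ Eb Gc s (B * (n * s)) := by
  have hsum := Finset.sum_le_sum (s := range (B * (n * s))) fun a _ =>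
    line_ineq (Gc a) (G a) s n r z B hs hn hr hB hz D J C hD hJ (hg a) (hp a) (hc a)
  simp only [Finset.sum_sub_distrib, Finset.sum_add_distrib, Finset.sum_const, card_range,
    nsmul_eq_mul] at hsum
  unfold Eb Vb
  have hW : (0 : ℝ) < (B * (n * s) : ℕ) := by positivity
  rw [le_div_iff₀ hW]
  refine le_trans (le_of_eq ?_) hsum
  field_simp

theorem step {G Gt Gf : ℕ → ℕ → V} {s M q N : ℕ} {D C : ℝ} (H : StepData G Gt Gf s M q N D C)
    (z : ℕ) (hM : M = N * q * z) (hN : 0 < N) (hq : 0 < q) (hz : 0 < z) (hD : 1 ≤ D)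
    (hbig : 200 * D * N ^ 2 * q ≤ M) (hs : M ≤ s) (hP : Pack V N (C + 1)) (B : ℕ) (hB : 0 < B) :
    (Ea G (M * M * s) (B * (M * M * s)) - 4 * D ^ 2 / q - 10 * D ^ 2 / M
          ≤ Ea Gt s (B * (M * M * s))
        ∧ Eb G (M * M * s) (B * (M * M * s)) + 1 / (800 * (N : ℝ) ^ 3) - 10 * D ^ 2 / M
          ≤ Eb Gt s (B * (M * M * s)))
      ∨ Ea G (M * M * s) (B * (M * M * s)) + 1 / (800 * (N : ℝ) ^ 3) / (q : ℝ) ^ 2 - 10 * D ^ 2 / M
          ≤ Ea Gf s (B * (M * M * s)) := by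
  have hM0 : 0 < M := by rw [hM]; positivity
  have hs0 : 0 < s := by omega
  have hM' : (0 : ℝ) < M := by exact_mod_cast hM0
  have hs' : (0 : ℝ) < s := by exact_mod_cast hs0
  have hN' : (0 : ℝ) < N := by exact_mod_cast hN
  have hq' : (0 : ℝ) < q := by exact_mod_cast hq
  have hMs : (M : ℝ) ≤ s := by exact_mod_cast hs
  have hD0 : 0 ≤ D := by linarith
  have hv := var_ineq H z hM hN hq hz hD hbig hs hP B hB
  have l1 := lines_ineq (fun b a => Gt a b) (fun b a => G a b) s (M * M) (q * M * s) (N * z) B hs0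
    (by positivity) (by positivity) hB (by rw [hM]; ring) D _ _ hD0 (by positivity) H.hTa H.hGa
    (fun b a => H.hct a b)
  have l2 := lines_ineq Gt G s (M * M) 1 (M * M * s) B hs0
    (by positivity) (by positivity) hB (by ring) D _ _ hD0 le_rfl H.hTb H.hGb H.hct
  have l3 := lines_ineq (fun b a => Gf a b) (fun b a => G a b) s (M * M) 1 (M * M * s) B hs0
    (by positivity) (by positivity) hB (by ring) D _ _ hD0 le_rfl H.hFa H.hGa
    (fun b a => H.hcf a b)
  have c1 : 2 * D * (D / s) ≤ 2 * D ^ 2 / M := by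
    have : D / s ≤ D / M := by gcongr
    calc 2 * D * (D / s) ≤ 2 * D * (D / M) := by gcongr
      _ = _ := by ring
  have c2 : 2 * D * (2 * (2 * D * (M * s)) / ((M * M : ℕ) * s)) = 8 * D ^ 2 / M := by
    push_cast; field_simp; ring
  have c3 : 2 * D * (2 * D * (M * s) / (q * M * s : ℕ)) = 4 * D ^ 2 / q := by
    push_cast; field_simp; ring
  have c4 : 10 * D ^ 2 / M = 2 * D ^ 2 / M + 8 * D ^ 2 / M := by ring
  rw [mul_add, mul_add, c2] at l1 l2 l3
  rw [c3] at l1
  simp only [zero_div, mul_zero, add_zero] at l2 l3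
  have v1 := Vb_nonneg (fun b a => Gt a b) (fun b a => G a b) s (M * M) (B * (M * M * s))
  unfold Ea
  by_cases hc : 1 / (800 * (N : ℝ) ^ 3) ≤ Vb Gt G s (M * M) (B * (M * M * s))
  · left
    constructor <;> linarith
  · right
    have : 1 / (800 * (N : ℝ) ^ 3) / (q : ℝ) ^ 2
        ≤ Vb (fun b a => Gf a b) (fun b a => G a b) s (M * M) (B * (M * M * s)) := by
      rw [div_le_iff₀ (by positivity)]
      have : 1 / (400 * (N : ℝ) ^ 3) = 2 * (1 / (800 * (N : ℝ) ^ 3)) := by field_simp; norm_num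
      linarith
    linarith

end Vale.Agent.P208
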