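import Vale.Agent.P208.Geom
import Vale.Agent.P208.Step
import Vale.Agent.P208.Game

/-! The configuration with good parameters has no embedding of small distortion. -/

namespace Vale.Agent.P208
open Finset

variable {V : Type*} [NormedAddCommGroup V] [InnerProductSpace ℝ V]

def Par.Good (p : Par) : Prop :=
  0 < p.N ∧ (∀ l, 0 < p.q l ∧ (∃ z, 0 < z ∧ p.M = p.N * p.q l * z) ∧
    200 * p.N * p.N ^ 2 * p.q l ≤ p.M) ∧ Win p.N p.q p.M p.T

lemma Par.w_eq (p : Par) (m : ℕ) (hm : m < p.T) : p.w m = p.M * p.S (m + 1) := by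
  unfold Par.w Par.S
  rw [← pow_succ']; congr 1; omega

lemma Par.S_eq (p : Par) (m : ℕ) (hm : m < p.T) : p.S m = p.M * p.M * p.S (m + 1) := by
  unfold Par.S
  rw [mul_assoc, ← pow_succ', ← pow_succ']; congr 1; omega

omit [InnerProductSpace ℝ V] in
lemma lip_node (p : Par) (R D0 : ℝ) (hD0 : D0 ≤ p.N) (F : ℕ → (ℕ → Bool) → ℕ → ℕ → V)
    (hup : ∀ m ω a b m' ω' a' b', ‖F m ω a b - F m' ω' a' b'‖
      ≤ D0 * ‖pt p R m ω a b - pt p R m' ω' a' b'‖) (m : ℕ) (hm : m ≤ p.T) (ω : ℕ → Bool) :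
    (∀ b, LipJ (fun a => F m ω a b) (p.S m) p.N 0 1) ∧ ∀ a, LipJ (F m ω a) (p.S m) p.N 0 1 := by
  constructor
  · intro b x y hxy h
    have h1 := pt_sub_le_one p R m m ω ω y b x b m fun j _ => st_block p m hm ω _ _ _ _ j h.symm rfl
    rw [st_self, st_self, sub_self, sub_self, abs_of_nonneg (by simpa using hxy)] at h1
    simp only [abs_zero, norm_zero, mul_zero, add_zero] at h1
    have h2 := (hup m ω y b m ω x b).trans (mul_le_mul_of_nonneg_right hD0 (norm_nonneg _))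
    have h3 := mul_le_mul_of_nonneg_left h1 (Nat.cast_nonneg (α := ℝ) p.N)
    simp only [zero_mul, add_zero]
    linarith
  · intro a x y hxy h
    have h1 := pt_sub_le_one p R m m ω ω a y a x m fun j _ => st_block p m hm ω _ _ _ _ j rfl h.symm
    rw [st_self, st_self, sub_self, sub_self, abs_of_nonneg (a := (y : ℝ) - x)
      (by simpa using hxy)] at h1
    simp only [abs_zero, norm_zero, mul_zero, add_zero, zero_add] at h1
    have h2 := (hup m ω a y m ω a x).trans (mul_le_mul_of_nonneg_right hD0 (norm_nonneg _))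
    have h3 := mul_le_mul_of_nonneg_left h1 (Nat.cast_nonneg (α := ℝ) p.N)
    simp only [zero_mul, add_zero]
    linarith

omit [InnerProductSpace ℝ V] in
lemma step_data (p : Par) (hN : 0 < p.N) (R D0 : ℝ) (hD00 : 0 ≤ D0) (hD0 : D0 ≤ p.N)
    (F : ℕ → (ℕ → Bool) → ℕ → ℕ → V)
    (hlo : ∀ m ω a b m' ω' a' b', ‖pt p R m ω a b - pt p R m' ω' a' b'‖
      ≤ ‖F m ω a b - F m' ω' a' b'‖)
    (hup : ∀ m ω a b m' ω' a' b', ‖F m ω a b - F m' ω' a' b'‖
      ≤ D0 * ‖pt p R m ω a b - pt p R m' ω' a' b'‖) (m : ℕ) (hm : m < p.T) (ω : ℕ → Bool) :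
    StepData (F m ω) (F (m + 1) (Function.update ω m true)) (F (m + 1) (Function.update ω m false))
      (p.S (m + 1)) p.M (p.q (run ω m)) p.N p.N (4 * D0) := by
  have hw := p.w_eq m hm
  have hw' : (p.w m : ℝ) = p.M * p.S (m + 1) := by exact_mod_cast hw
  have hS := p.S_eq m hm
  have hN' : (0 : ℝ) < p.N := by exact_mod_cast hN
  have hup' : ∀ m ω a b m' ω' a' b' (x : ℝ), ‖pt p R m ω a b - pt p R m' ω' a' b'‖ ≤ x →
      ‖F m ω a b - F m' ω' a' b'‖ ≤ p.N * x := fun m ω a b m' ω' a' b' x hx =>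
    ((hup _ _ _ _ _ _ _ _).trans (mul_le_mul_of_nonneg_right hD0 (norm_nonneg _))).trans
      (mul_le_mul_of_nonneg_left hx hN'.le)
  have hl := lip_node p R D0 hD0 F hup m hm.le ω
  have one : ∀ (c : Bool) a b a' b', a / p.S m = a' / p.S m → b / p.S m = b' / p.S m →
      ∀ j, j ≠ m → st p (m + 1) (Function.update ω m c) a b j
        = st p (m + 1) (Function.update ω m c) a' b' j := fun c a b a' b' ha hb j hj => by
    rw [st_upd_ne _ _ _ _ _ _ _ hj, st_upd_ne _ _ _ _ _ _ _ hj, st_block p m hm.le ω _ _ _ _ j ha hb]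
  have two : ∀ a b, ‖pt p R (m + 1) (Function.update ω m true) a b
      - pt p R (m + 1) (Function.update ω m false) a b‖ ≤ p.w m *
        ‖vec p m (some (true, a / (p.q (run ω m) * p.w m) % p.N))
          - vec p m (some (false, b / p.w m % p.N))‖ := fun a b => by
    have := pt_sub_le_one p R (m + 1) (m + 1) (Function.update ω m true)
      (Function.update ω m false) a b a b m fun j hj => by
        rw [st_upd_ne _ _ _ _ _ _ _ hj, st_upd_ne _ _ _ _ _ _ _ hj]
    rw [st_upd_true, st_upd_false] at this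
    simpa using this
  have three : ∀ (c : Bool) a b, ‖F (m + 1) (Function.update ω m c) a b - F m ω a b‖
      ≤ 2 * p.N * (p.M * p.S (m + 1)) := fun c a b => by
    have := pt_sub_le_one p R (m + 1) m (Function.update ω m c) ω a b a b m fun j hj =>
      st_upd_ne _ _ _ _ _ _ _ hj
    rw [st_self] at this
    simp only [sub_self, abs_zero, zero_add, vec, sub_zero] at this
    have h2 := mul_le_mul_of_nonneg_left
      (norm_vec_le p hN m (st p (m + 1) (Function.update ω m c) a b m))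
      (Nat.cast_nonneg (α := ℝ) (p.w m))
    refine (hup' _ _ _ _ _ _ _ _ _ (this.trans h2)).trans (le_of_eq ?_)
    rw [hw']; ring
  refine ⟨hS ▸ hl.1, hS ▸ hl.2, ?_, ?_, ?_, three true, three false, ?_, ?_, ?_⟩
  · intro b x y hxy h
    rw [← hS] at h
    have h1 := pt_sub_le_one p R (m + 1) (m + 1) _ _ y b x b m (one true _ _ _ _ h.symm rfl)
    rw [st_upd_true, st_upd_true, sub_self, abs_of_nonneg (by simpa using hxy)] at h1
    rw [mul_assoc (p.q _), ← hw, ← hw']
    have h2 : ‖vec p m (some (true, y / (p.q (run ω m) * p.w m) % p.N))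
        - vec p m (some (true, x / (p.q (run ω m) * p.w m) % p.N))‖
        ≤ 2 * (((y / (p.q (run ω m) * p.w m) : ℕ) : ℝ) - ((x / (p.q (run ω m) * p.w m) : ℕ) : ℝ)) := by
      have h3 : x / (p.q (run ω m) * p.w m) ≤ y / (p.q (run ω m) * p.w m) :=
        Nat.div_le_div_right hxy
      rcases h3.eq_or_lt with h4 | h4
      · rw [h4]; simp
      · have h5 : ((x / (p.q (run ω m) * p.w m) : ℕ) : ℝ) + 1
            ≤ ((y / (p.q (run ω m) * p.w m) : ℕ) : ℝ) := by exact_mod_cast h4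
        simp only [vec, th, if_true, zero_smul, add_zero]
        refine (norm_sub_le _ _).trans ?_
        rw [norm_E, norm_E]; linarith
    have h3 := mul_le_mul_of_nonneg_left h2 (Nat.cast_nonneg (α := ℝ) (p.w m))
    refine (hup' _ _ _ _ _ _ _ _ _ (h1.trans (add_le_add le_rfl h3))).trans (le_of_eq ?_)
    simp only [abs_zero]; ring
  · intro a x y hxy h
    rw [← hS] at h
    have h1 := pt_sub_le_one p R (m + 1) (m + 1) _ _ a y a x m (one true _ _ _ _ rfl h.symm)
    rw [st_upd_true, st_upd_true, sub_self, sub_self, abs_of_nonneg (a := (y : ℝ) - x)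
      (by simpa using hxy)] at h1
    refine (hup' _ _ _ _ _ _ _ _ _ h1).trans (le_of_eq ?_)
    simp
  · intro b x y hxy h
    rw [← hS] at h
    have h1 := pt_sub_le_one p R (m + 1) (m + 1) _ _ y b x b m (one false _ _ _ _ h.symm rfl)
    rw [st_upd_false, st_upd_false, sub_self, sub_self, abs_of_nonneg (a := (y : ℝ) - x)
      (by simpa using hxy)] at h1
    refine (hup' _ _ _ _ _ _ _ _ _ h1).trans (le_of_eq ?_)
    simp
  · intro a b h
    rw [mul_assoc (p.q _), ← hw] at h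
    have h1 := two a b
    rw [h] at h1
    have h2 : ‖vec p m (some (true, b / p.w m % p.N)) - vec p m (some (false, b / p.w m % p.N))‖
        = 1 / (10 * p.N) := by
      simp [vec, th, norm_smul, norm_E]
    rw [h2] at h1
    refine (hup' _ _ _ _ _ _ _ _ _ h1).trans (le_of_eq ?_)
    rw [hw']; field_simp
  · intro a b h
    rw [mul_assoc (p.q _), ← hw] at h
    refine le_trans ?_ (hlo _ _ _ _ _ _ _ _)
    refine le_trans ?_ (coord_le (m + 1) (a / (p.q (run ω m) * p.w m) % p.N) _ _)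
    rw [inner_pt_lev _ _ _ _ _ _ _ _ hm, inner_pt_lev _ _ _ _ _ _ _ _ hm, st_upd_true, st_upd_false,
      ← hw']
    have h2 := (Nat.mod_lt (a / (p.q (run ω m) * p.w m)) hN).ne
    simp [cv, h, h2]
  · intro a b
    refine (hup _ _ _ _ _ _ _ _).trans ?_
    have h2 := (two a b).trans (mul_le_mul_of_nonneg_left (norm_vec_sub_le p hN m _ _)
      (Nat.cast_nonneg (α := ℝ) (p.w m)))
    refine (mul_le_mul_of_nonneg_left h2 hD00).trans (le_of_eq ?_)
    rw [hw']; ring

theorem no_emb (p : Par) (hp : p.Good) (R D0 : ℝ) (hD00 : 0 ≤ D0) (hD0 : D0 ≤ p.N)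
    (hP : Pack V p.N (4 * D0 + 1)) (F : ℕ → (ℕ → Bool) → ℕ → ℕ → V)
    (hlo : ∀ m ω a b m' ω' a' b', ‖pt p R m ω a b - pt p R m' ω' a' b'‖
      ≤ ‖F m ω a b - F m' ω' a' b'‖)
    (hup : ∀ m ω a b m' ω' a' b', ‖F m ω a b - F m' ω' a' b'‖
      ≤ D0 * ‖pt p R m ω a b - pt p R m' ω' a' b'‖) : False := by
  obtain ⟨hN, hq, hW⟩ := hp
  have hM : 0 < p.M := by
    obtain ⟨h1, ⟨z, hz, h2⟩, -⟩ := hq 0
    rw [h2]; positivity
  have hS0 : ∀ m, 0 < p.S m := fun m => pow_pos hM _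
  have hW0 : ∀ m ≤ p.T, p.S 0 = p.M ^ (2 * m) * p.S m := fun m hm => by
    unfold Par.S
    rw [← pow_add]; congr 1; omega
  refine hW (fun m l x y => ∃ ω, run ω m = l ∧ x = Ea (F m ω) (p.S m) (p.S 0) ∧
    y = Eb (F m ω) (p.S m) (p.S 0)) ⟨_, _, fun _ => true, rfl, rfl, rfl⟩ ?_ ?_
  · rintro m hm l x y ⟨ω, -, rfl, rfl⟩
    have hl := lip_node p R D0 hD0 F hup m hm ω
    rw [hW0 m hm]
    exact ⟨Eb_nonneg _ _ _, Eb_le _ _ _ (hS0 m) (pow_pos hM _) _ (by positivity) hl.1,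
      Eb_nonneg _ _ _, Eb_le _ _ _ (hS0 m) (pow_pos hM _) _ (by positivity) hl.2⟩
  · rintro m hm l x y ⟨ω, rfl, rfl, rfl⟩
    obtain ⟨h1, ⟨z, hz, h2⟩, h3⟩ := hq (run ω m)
    have := step (step_data p hN R D0 hD00 hD0 F hlo hup m hm ω) z h2 hN h1 hz
      (by exact_mod_cast hN) (by exact_mod_cast h3)
      (by unfold Par.S; rw [pow_succ]; exact Nat.le_mul_of_pos_left _ (pow_pos hM _)) hP
      (p.M ^ (2 * m)) (pow_pos hM _)
    rw [← p.S_eq m hm, ← hW0 m hm.le] at this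
    rcases this with h | h
    · exact Or.inl ⟨_, _, ⟨Function.update ω m true, by simp [run, run_upd], rfl, rfl⟩, h.1, h.2⟩
    · exact Or.inr ⟨_, _, ⟨Function.update ω m false, by simp [run], rfl, rfl⟩, h⟩

lemma exists_good (N : ℕ) (hN : 0 < N) : ∃ p : Par, p.N = N ∧ p.Good := by
  obtain ⟨q, M, T, h1, h2⟩ := exists_params N hN
  exact ⟨⟨N, M, T, q⟩, rfl, hN, h1, h2⟩

lemma exists_pack (V : Type*) [NormedAddCommGroup V] [ProperSpace V] (C : ℝ) :
    ∃ N0 : ℕ, ∀ N, N0 ≤ N → Pack V N C := by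
  obtain ⟨t, ht, hcov⟩ := Metric.totallyBounded_iff.1
    (isCompact_closedBall (0 : V) C).totallyBounded (1 / 4) (by norm_num)
  refine ⟨ht.toFinset.card + 1, fun N hN => ?_⟩
  rintro ⟨φ, hφ⟩
  have h1 : ∀ i, ∃ y, i < N → y ∈ ht.toFinset ∧ φ i - φ 0 ∈ Metric.ball y (1 / 4) := by
    intro i
    by_cases hi : i < N
    · have : φ i - φ 0 ∈ Metric.closedBall (0 : V) C := by
        simpa using (hφ i hi 0 (by omega)).2
      obtain ⟨y, hy, h⟩ := Set.mem_iUnion₂.1 (hcov this)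
      exact ⟨y, fun _ => ⟨ht.mem_toFinset.2 hy, h⟩⟩
    · exact ⟨0, fun h => absurd h hi⟩
  choose y hy using h1
  obtain ⟨i, hi, j, hj, hij, h⟩ := Finset.exists_ne_map_eq_of_card_lt_of_maps_to
    (s := range N) (t := ht.toFinset) (by simp only [card_range]; omega) (f := y)
    (fun i hi => (hy i (mem_range.1 hi)).1)
  have h2 := (hy i (mem_range.1 hi)).2
  have h3 := (hy j (mem_range.1 hj)).2
  rw [← h] at h3
  rw [Metric.mem_ball] at h2 h3
  have h4 := dist_triangle_right (φ i - φ 0) (φ j - φ 0) (y i)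
  rw [dist_sub_right, dist_eq_norm] at h4
  have := (hφ i (mem_range.1 hi) j (mem_range.1 hj)).1 hij
  linarith

end Vale.Agent.P208
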