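import Vale.Agent.P208.Defs
import Vale.Agent.P208.NoEmb

/-! The union of all configurations is doubling. -/

namespace Vale.Agent.P208
open Finset

lemma doubling_of_key {Y I K : Type*} [MetricSpace Y] [Fintype K] (P : I → Y)
    (h : ∀ ρ : ℝ, 0 < ρ → ∃ κ : I → K, ∀ i j, dist (P i) (P j) ≤ 2 * ρ → κ i = κ j →
      dist (P i) (P j) < ρ / 2) : IsDoubling (Set.range P) := by
  classical
  refine ⟨Fintype.card K, fun x r hr => ?_⟩
  obtain ⟨κ, hκ⟩ := h r hr
  have : ∀ k : K, ∃ y : Set.range P, ∀ i, κ i = k → dist (P i) x.1 ≤ r → dist (P i) y.1 < r / 2 := by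
    intro k
    by_cases hk : ∃ j, κ j = k ∧ dist (P j) x.1 ≤ r
    · obtain ⟨j, hj, hj'⟩ := hk
      refine ⟨⟨P j, j, rfl⟩, fun i hi hi' => hκ i j ?_ (hi.trans hj.symm)⟩
      linarith [dist_triangle_right (P i) (P j) x.1]
    · exact ⟨x, fun i hi hi' => absurd ⟨i, hi, hi'⟩ hk⟩
  choose c hc using this
  refine ⟨univ.image c, card_image_le.trans (by simp), ?_⟩
  rintro ⟨_, i, rfl⟩ hy
  simp only [Set.mem_iUnion]
  exact ⟨c (κ i), mem_image_of_mem _ (mem_univ _), hc (κ i) i rfl hy⟩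

lemma quot_eq (a a' d : ℕ) (hd : 0 < d) (h : |(a : ℝ) - a'| ≤ 50 * d)
    (hm : a / d % 100 = a' / d % 100) : a / d = a' / d := by
  have h1 : a ≤ a' + 50 * d := by
    have : (a : ℝ) ≤ a' + 50 * d := by linarith [(abs_le.1 h).2]
    exact_mod_cast this
  have h2 : a' ≤ a + 50 * d := by
    have : (a' : ℝ) ≤ a + 50 * d := by linarith [(abs_le.1 h).1]
    exact_mod_cast this
  have h3 := Nat.div_le_div_right (c := d) h1
  have h4 := Nat.div_le_div_right (c := d) h2
  rw [Nat.add_mul_div_right _ _ hd] at h3 h4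
  omega

lemma close_of_quot (a a' : ℕ) (ρ : ℝ) (hρ : 0 < ρ) (h : |(a : ℝ) - a'| ≤ 2 * ρ)
    (hm : a / (⌊ρ / 10⌋₊ + 1) % 100 = a' / (⌊ρ / 10⌋₊ + 1) % 100) : |(a : ℝ) - a'| ≤ ρ / 10 := by
  have h1 : ρ / 10 < ⌊ρ / 10⌋₊ + 1 := Nat.lt_floor_add_one _
  have h2 : (⌊ρ / 10⌋₊ : ℝ) ≤ ρ / 10 := Nat.floor_le (by positivity)
  set f := ⌊ρ / 10⌋₊
  have h3 := quot_eq a a' (f + 1) (by omega) (by push_cast; linarith) hm
  have e1 := Nat.div_add_mod a (f + 1)
  have e2 := Nat.div_add_mod a' (f + 1)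
  have e3 := Nat.mod_lt a (show 0 < f + 1 by omega)
  have e4 := Nat.mod_lt a' (show 0 < f + 1 by omega)
  rw [h3] at e1
  have k1 : a ≤ a' + f := by omega
  have k2 : a' ≤ a + f := by omega
  have k1' : (a : ℝ) ≤ a' + f := by exact_mod_cast k1
  have k2' : (a' : ℝ) ≤ a + f := by exact_mod_cast k2
  rw [abs_le]; constructor <;> linarith

lemma w_tail (p : Par) (hM : 2 ≤ p.M) (i k : ℕ) (h : i + k ≤ p.T) :
    ∑ j ∈ range k, (p.w (i + j) : ℝ) ≤ 2 * (p.w i - p.w (i + k)) := by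
  induction k with
  | zero => simp
  | succ k ih =>
    have h1 := ih (by omega)
    have h2 : 2 * p.w (i + (k + 1)) ≤ p.w (i + k) := by
      unfold Par.w
      have : 2 * (p.T - (i + k)) = 2 * (p.T - (i + (k + 1))) + 1 + 1 := by omega
      rw [this, pow_succ, pow_succ, mul_assoc, mul_comm]
      exact Nat.mul_le_mul_left _ (by nlinarith)
    have h3 : 2 * (p.w (i + (k + 1)) : ℝ) ≤ p.w (i + k) := by exact_mod_cast h2
    rw [Finset.sum_range_succ]
    linarith

lemma exists_lev (p : Par) (ρ : ℝ) : ∃ l, l ≤ p.T ∧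
    (∀ j < l, 2 * ρ < 1 / (10 * (p.N : ℝ)) * p.w j) ∧
    (l < p.T → 1 / (10 * (p.N : ℝ)) * p.w l ≤ 2 * ρ) := by
  classical
  have ex : ∃ l, p.T ≤ l ∨ 1 / (10 * (p.N : ℝ)) * p.w l ≤ 2 * ρ := ⟨p.T, Or.inl le_rfl⟩
  refine ⟨Nat.find ex, Nat.find_min' ex (Or.inl le_rfl), fun j hj => ?_, fun h => ?_⟩
  · have := Nat.find_min ex hj
    push Not at this
    exact this.2
  · exact (Nat.find_spec ex).resolve_left (by omega)

def levKey (p : Par) (l m : ℕ) (ω : ℕ → Bool) (a b : ℕ) : Option (Bool × Fin 100) :=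
  if l < m then some (ω l, ⟨quo p ω a b l % 100, Nat.mod_lt _ (by norm_num)⟩) else none

lemma ht_close (p : Par) (hN : 0 < p.N) (hM : 200 * p.N ≤ p.M) (hq : ∀ l, 0 < p.q l)
    (ρ : ℝ) (hρ : 0 < ρ) (l : ℕ) (hl : l ≤ p.T)
    (h1 : ∀ j < l, 2 * ρ < 1 / (10 * (p.N : ℝ)) * p.w j)
    (h2 : l < p.T → 1 / (10 * (p.N : ℝ)) * p.w l ≤ 2 * ρ)
    (R : ℝ) (m m' : ℕ) (ω ω' : ℕ → Bool) (a b a' b' : ℕ)
    (hd : ‖pt p R m ω a b - pt p R m' ω' a' b'‖ ≤ 2 * ρ)
    (hk : levKey p l m ω a b = levKey p l m' ω' a' b') :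
    ‖ht p m ω a b - ht p m' ω' a' b'‖ ≤ ρ / 4 := by
  have hN' : (1 : ℝ) ≤ p.N := by exact_mod_cast hN
  have hM' : 200 * (p.N : ℝ) ≤ p.M := by exact_mod_cast hM
  have low : ∀ j < l, st p m ω a b j = st p m' ω' a' b' j := fun j hj =>
    st_eq_of_close p hN R _ _ _ _ _ _ _ _ j (by omega) (hd.trans_lt (h1 j hj))
  refine (ht_sub_le _ _ _ _ _ _ _ _ _).trans ?_
  have z : ∑ j ∈ range l, (p.w j : ℝ) *
      ‖vec p j (st p m ω a b j) - vec p j (st p m' ω' a' b' j)‖ = 0 :=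
    Finset.sum_eq_zero fun j hj => by rw [low j (mem_range.1 hj)]; simp
  rcases hl.eq_or_lt with hT | hT
  · rw [← hT, z]; positivity
  obtain ⟨k, hk'⟩ : ∃ k, p.T = l + 1 + k := ⟨p.T - (l + 1), by omega⟩
  have hwl : (p.w l : ℝ) ≤ 20 * p.N * ρ := by
    have := h2 hT
    rw [div_mul_eq_mul_div, div_le_iff₀ (by positivity)] at this
    linarith
  have t1 : (p.w l : ℝ) * ‖vec p l (st p m ω a b l) - vec p l (st p m' ω' a' b' l)‖ ≤ ρ / 5 := by
    by_cases hw : (p.w l : ℝ) ≤ ρ / 20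
    · have := mul_le_mul hw (norm_vec_sub_le p hN l (st p m ω a b l) (st p m' ω' a' b' l))
        (norm_nonneg _) (by positivity)
      linarith
    have : st p m ω a b l = st p m' ω' a' b' l := by
      unfold levKey at hk
      unfold st
      by_cases g1 : l < m <;> by_cases g2 : l < m' <;> simp only [g1, g2, if_true, if_false] at hk ⊢
      · simp only [Option.some.injEq, Prod.mk.injEq, Fin.mk.injEq] at hk ⊢
        refine ⟨hk.1, ?_⟩
        congr 1
        have hr : run ω l = run ω' l := run_congr _ _ _ fun j hj => by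
          have := low j hj
          unfold st at this
          rw [if_pos (by omega), if_pos (by omega)] at this
          simp only [Option.some.injEq, Prod.mk.injEq] at this
          exact this.1
        have ha := (coord_le 0 0 _ _).trans hd
        have hb := (coord_le 0 1 _ _).trans hd
        rw [inner_pt_a, inner_pt_a] at ha
        rw [inner_pt_b, inner_pt_b] at hb
        have hw0 : 0 < p.w l := pow_pos (by omega) _
        have hk2 := hk.2
        unfold quo at hk2 ⊢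
        rw [← hk.1, ← hr] at hk2 ⊢
        have hq1 : (1 : ℝ) ≤ p.q (run ω l) := by exact_mod_cast hq _
        split_ifs at hk2 ⊢
        · refine quot_eq _ _ _ (Nat.mul_pos (hq _) hw0) ?_ hk2
          push_cast
          nlinarith
        · refine quot_eq _ _ _ hw0 ?_ hk2
          linarith
      · simp at hk
      · simp at hk
    rw [this]; simp; positivity
  have t2 : ∑ j ∈ range k, (p.w (l + 1 + j) : ℝ) *
      ‖vec p (l + 1 + j) (st p m ω a b (l + 1 + j)) - vec p (l + 1 + j) (st p m' ω' a' b' (l + 1 + j))‖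
      ≤ ρ / 20 := by
    have s1 := w_tail p (by omega) (l + 1) k hk'.ge
    have s2 : (p.w l : ℝ) = p.M * p.M * p.w (l + 1) := by
      have : p.w l = p.M * p.M * p.w (l + 1) := by
        unfold Par.w
        rw [mul_assoc, ← pow_succ', ← pow_succ']; congr 1; omega
      exact_mod_cast this
    have s3 : (0 : ℝ) ≤ p.w (l + 1) := by positivity
    have s4 : (0 : ℝ) ≤ p.w (l + 1 + k) := by positivity
    have s5 : 200 * (200 * (p.N : ℝ)) * p.w (l + 1) ≤ p.M * p.M * p.w (l + 1) := by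
      gcongr; linarith
    have s6 : (p.w (l + 1) : ℝ) ≤ ρ / 2000 := by
      have : (p.N : ℝ) * (40000 * p.w (l + 1)) ≤ p.N * (20 * ρ) := by linarith
      have := le_of_mul_le_mul_left this (by positivity)
      linarith
    calc _ ≤ ∑ j ∈ range k, (p.w (l + 1 + j) : ℝ) * 4 := Finset.sum_le_sum fun j _ =>
          mul_le_mul_of_nonneg_left (norm_vec_sub_le p hN _ _ _) (by positivity)
      _ ≤ _ := by rw [← Finset.sum_mul]; linarith
  rw [hk', Finset.sum_range_add, Finset.sum_range_succ, z]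
  linarith

noncomputable def Rad (p : ℕ → Par) : ℕ → ℝ
  | 0 => Hb (p 0) + 1
  | n + 1 => 100 * Rad p n + Hb (p (n + 1))

lemma Rad_pos (p : ℕ → Par) (n : ℕ) : 0 < Rad p n := by
  induction n with
  | zero => simp only [Rad]; linarith [Hb_nonneg (p 0)]
  | succ n ih => simp only [Rad]; linarith [Hb_nonneg (p (n + 1))]

lemma Hb_le_Rad (p : ℕ → Par) (n : ℕ) : Hb (p n) ≤ Rad p n := by
  cases n with
  | zero => simp only [Rad]; linarith
  | succ n => simp only [Rad]; linarith [Rad_pos p n]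

lemma Rad_grow (p : ℕ → Par) (n n' : ℕ) (h : n < n') : 100 * Rad p n ≤ Rad p n' := by
  induction n', h using Nat.le_induction with
  | base => simp only [Rad]; linarith [Hb_nonneg (p (n + 1))]
  | succ k _ ih => simp only [Rad]; linarith [Hb_nonneg (p (k + 1)), Rad_pos p k]

noncomputable def allPt (p : ℕ → Par) (i : ℕ × ℕ × (ℕ → Bool) × ℕ × ℕ) : L2 :=
  pt (p i.1) (Rad p i.1) i.2.1 i.2.2.1 i.2.2.2.1 i.2.2.2.2

theorem doubling_all (p : ℕ → Par) (hp : ∀ n, (p n).Good) : IsDoubling (Set.range (allPt p)) := by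
  classical
  refine doubling_of_key (K := Fin 100 × Fin 100 × Option (Option (Bool × Fin 100))) _
    fun ρ hρ => ?_
  choose l hl h1 h2 using fun n => exists_lev (p n) ρ
  refine ⟨fun i => (⟨i.2.2.2.1 / (⌊ρ / 10⌋₊ + 1) % 100, Nat.mod_lt _ (by norm_num)⟩,
    ⟨i.2.2.2.2 / (⌊ρ / 10⌋₊ + 1) % 100, Nat.mod_lt _ (by norm_num)⟩,
    if Rad p i.1 ≤ ρ / 20 then none
      else some (levKey (p i.1) (l i.1) i.2.1 i.2.2.1 i.2.2.2.1 i.2.2.2.2)), ?_⟩
  rintro ⟨n, m, ω, a, b⟩ ⟨n', m', ω', a', b'⟩ hd hk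
  simp only [allPt, dist_eq_norm, Prod.mk.injEq, Fin.mk.injEq] at hd hk ⊢
  obtain ⟨ka, kb, hk⟩ := hk
  have ha := (coord_le 0 0 _ _).trans hd
  have hb := (coord_le 0 1 _ _).trans hd
  have hR := (coord_le 0 2 _ _).trans hd
  rw [inner_pt_a, inner_pt_a] at ha
  rw [inner_pt_b, inner_pt_b] at hb
  rw [inner_pt_R, inner_pt_R, abs_le] at hR
  have ha' := close_of_quot a a' ρ hρ ha ka
  have hb' := close_of_quot b b' ρ hρ hb kb
  refine (pt_sub_le _ _ _ _ _ _ _ _ _ _ _ _).trans_lt ?_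
  have r1 := Rad_pos p n
  have r2 := Rad_pos p n'
  by_cases g1 : Rad p n ≤ ρ / 20 <;> by_cases g2 : Rad p n' ≤ ρ / 20 <;>
    simp only [g1, g2, if_true, if_false] at hk
  · have e1 := (norm_ht_le (p n) (hp n).1 m ω a b).trans (Hb_le_Rad p n)
    have e2 := (norm_ht_le (p n') (hp n').1 m' ω' a' b').trans (Hb_le_Rad p n')
    have e3 := norm_sub_le (ht (p n) m ω a b) (ht (p n') m' ω' a' b')
    have e4 : |Rad p n - Rad p n'| ≤ ρ / 20 := by rw [abs_le]; constructor <;> linarith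
    linarith
  · simp at hk
  · simp at hk
  · have hn : n = n' := by
      rcases lt_trichotomy n n' with h | h | h
      · have := Rad_grow p n n' h
        linarith [hR.1]
      · exact h
      · have := Rad_grow p n' n h
        linarith [hR.2]
    subst hn
    obtain ⟨hN, hq, -⟩ := hp n
    have hM : 200 * (p n).N ≤ (p n).M := by
      refine le_trans ?_ (hq 0).2.2
      rw [mul_assoc (200 * (p n).N)]
      exact Nat.le_mul_of_pos_right _ (Nat.mul_pos (by positivity) (hq 0).1)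
    have := ht_close (p n) hN hM (fun l => (hq l).1) ρ hρ (l n) (hl n) (h1 n) (h2 n) _ _ _ _ _
      _ _ _ _ hd (Option.some.inj hk)
    rw [sub_self, abs_zero]
    linarith

end Vale.Agent.P208
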