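import Mathlib

/-! The point configuration in Hilbert space and its distances. -/

namespace Vale.Agent.P208
open Finset

abbrev L2 : Type := lp (fun _ : ℕ => ℝ) 2

noncomputable def E (u v : ℕ) : L2 := lp.single 2 (Nat.pair u v) (1 : ℝ)

lemma norm_E (u v : ℕ) : ‖E u v‖ = 1 := by
  unfold E
  rw [lp.norm_single (by norm_num)]; simp

lemma inner_E (u v u' v' : ℕ) :
    inner ℝ (E u v) (E u' v') = if u = u' ∧ v = v' then (1 : ℝ) else 0 := by
  unfold E
  rw [lp.inner_single_left, lp.single_apply, Pi.single_apply]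
  simp only [Nat.pair_eq_pair]
  split_ifs <;> simp

lemma coord_le (u v : ℕ) (x y : L2) : |inner ℝ (E u v) x - inner ℝ (E u v) y| ≤ ‖x - y‖ := by
  rw [← inner_sub_right]
  simpa [norm_E] using abs_real_inner_le_norm (E u v) (x - y)

structure Par where
  N : ℕ
  M : ℕ
  T : ℕ
  q : ℕ → ℕ

def run (ω : ℕ → Bool) : ℕ → ℕ
  | 0 => 0
  | j + 1 => if ω j then run ω j + 1 else 0

def Par.w (p : Par) (j : ℕ) : ℕ := p.M ^ (2 * (p.T - j))

def Par.S (p : Par) (j : ℕ) : ℕ := p.M ^ (2 * (p.T - j) + 1)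

def quo (p : Par) (ω : ℕ → Bool) (a b j : ℕ) : ℕ :=
  if ω j then a / (p.q (run ω j) * p.w j) else b / p.w j

def st (p : Par) (m : ℕ) (ω : ℕ → Bool) (a b j : ℕ) : Option (Bool × ℕ) :=
  if j < m then some (ω j, quo p ω a b j % p.N) else none

noncomputable def th (p : Par) (c : Bool) : ℝ := if c then 0 else 1 / (10 * p.N)

noncomputable def vec (p : Par) (j : ℕ) : Option (Bool × ℕ) → L2
  | none => 0
  | some (c, d) => E (j + 1) d + th p c • E (j + 1) p.N

noncomputable def cv (p : Par) (v : ℕ) : Option (Bool × ℕ) → ℝ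
  | none => 0
  | some (c, d) => (if v = d then 1 else 0) + th p c * (if v = p.N then 1 else 0)

noncomputable def ht (p : Par) (m : ℕ) (ω : ℕ → Bool) (a b : ℕ) : L2 :=
  ∑ j ∈ range p.T, (p.w j : ℝ) • vec p j (st p m ω a b j)

noncomputable def pt (p : Par) (R : ℝ) (m : ℕ) (ω : ℕ → Bool) (a b : ℕ) : L2 :=
  (a : ℝ) • E 0 0 + (b : ℝ) • E 0 1 + R • E 0 2 + ht p m ω a b

lemma th_nonneg (p : Par) (c : Bool) : 0 ≤ th p c := by
  unfold th; split_ifs <;> positivity

lemma theta_le (p : Par) (hN : 0 < p.N) : 1 / (10 * (p.N : ℝ)) ≤ 1 := by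
  have : (1 : ℝ) ≤ p.N := by exact_mod_cast hN
  rw [div_le_one (by positivity)]; linarith

lemma th_le (p : Par) (hN : 0 < p.N) (c : Bool) : th p c ≤ 1 := by
  unfold th; split_ifs
  · norm_num
  · exact theta_le p hN

lemma norm_vec_le (p : Par) (hN : 0 < p.N) (j : ℕ) (σ : Option (Bool × ℕ)) : ‖vec p j σ‖ ≤ 2 := by
  rcases σ with _ | ⟨c, d⟩
  · simp [vec]
  · simp only [vec]
    refine (norm_add_le _ _).trans ?_
    rw [norm_smul, norm_E, norm_E, Real.norm_eq_abs, abs_of_nonneg (th_nonneg p c)]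
    linarith [th_le p hN c]

lemma norm_vec_sub_le (p : Par) (hN : 0 < p.N) (j : ℕ) (σ σ' : Option (Bool × ℕ)) :
    ‖vec p j σ - vec p j σ'‖ ≤ 4 := by
  linarith [norm_sub_le (vec p j σ) (vec p j σ'), norm_vec_le p hN j σ, norm_vec_le p hN j σ']

lemma inner_vec_zero (p : Par) (v j : ℕ) (σ : Option (Bool × ℕ)) :
    inner ℝ (E 0 v) (vec p j σ) = 0 := by
  rcases σ with _ | ⟨c, d⟩
  · simp [vec]
  · simp [vec, inner_add_right, inner_smul_right, inner_E]

lemma inner_vec (p : Par) (l v j : ℕ) (σ : Option (Bool × ℕ)) :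
    inner ℝ (E (l + 1) v) (vec p j σ) = if l = j then cv p v σ else 0 := by
  rcases σ with _ | ⟨c, d⟩
  · simp [vec, cv]
  · by_cases h : l = j <;> simp [vec, cv, inner_add_right, inner_smul_right, inner_E, h]

lemma inner_ht_zero (p : Par) (v m : ℕ) (ω : ℕ → Bool) (a b : ℕ) :
    inner ℝ (E 0 v) (ht p m ω a b) = 0 := by
  simp [ht, inner_sum, inner_smul_right, inner_vec_zero]

lemma inner_pt_a (p : Par) (R : ℝ) (m : ℕ) (ω : ℕ → Bool) (a b : ℕ) :
    inner ℝ (E 0 0) (pt p R m ω a b) = a := by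
  simp only [pt, inner_add_right, inner_smul_right, inner_E, inner_ht_zero]; simp

lemma inner_pt_b (p : Par) (R : ℝ) (m : ℕ) (ω : ℕ → Bool) (a b : ℕ) :
    inner ℝ (E 0 1) (pt p R m ω a b) = b := by
  simp only [pt, inner_add_right, inner_smul_right, inner_E, inner_ht_zero]; simp

lemma inner_pt_R (p : Par) (R : ℝ) (m : ℕ) (ω : ℕ → Bool) (a b : ℕ) :
    inner ℝ (E 0 2) (pt p R m ω a b) = R := by
  simp only [pt, inner_add_right, inner_smul_right, inner_E, inner_ht_zero]; simp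

lemma inner_pt_lev (p : Par) (R : ℝ) (m : ℕ) (ω : ℕ → Bool) (a b l v : ℕ) (hl : l < p.T) :
    inner ℝ (E (l + 1) v) (pt p R m ω a b) = p.w l * cv p v (st p m ω a b l) := by
  simp only [pt, ht, inner_add_right, inner_smul_right, inner_E, inner_sum, inner_vec]
  simp [hl]

lemma pt_sub_le (p p' : Par) (R R' : ℝ) (m m' : ℕ) (ω ω' : ℕ → Bool) (a b a' b' : ℕ) :
    ‖pt p R m ω a b - pt p' R' m' ω' a' b'‖
      ≤ |(a : ℝ) - a'| + |(b : ℝ) - b'| + |R - R'| + ‖ht p m ω a b - ht p' m' ω' a' b'‖ := by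
  have e : pt p R m ω a b - pt p' R' m' ω' a' b' = ((a : ℝ) - a') • E 0 0 + ((b : ℝ) - b') • E 0 1
      + (R - R') • E 0 2 + (ht p m ω a b - ht p' m' ω' a' b') := by
    simp only [pt, sub_smul]; abel
  rw [e]
  refine (norm_add_le _ _).trans (add_le_add ?_ le_rfl)
  refine (norm_add_le _ _).trans (add_le_add ?_ (by rw [norm_smul, norm_E]; simp))
  refine (norm_add_le _ _).trans (add_le_add ?_ ?_) <;> (rw [norm_smul, norm_E]; simp)

lemma ht_sub_le (p : Par) (m m' : ℕ) (ω ω' : ℕ → Bool) (a b a' b' : ℕ) :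
    ‖ht p m ω a b - ht p m' ω' a' b'‖
      ≤ ∑ j ∈ range p.T, p.w j * ‖vec p j (st p m ω a b j) - vec p j (st p m' ω' a' b' j)‖ := by
  unfold ht
  rw [← Finset.sum_sub_distrib]
  refine (norm_sum_le _ _).trans (le_of_eq (Finset.sum_congr rfl fun j _ => ?_))
  rw [← smul_sub, norm_smul]; simp

noncomputable def Hb (p : Par) : ℝ := ∑ j ∈ range p.T, (p.w j : ℝ) * 2

lemma Hb_nonneg (p : Par) : 0 ≤ Hb p := by unfold Hb; positivity

lemma norm_ht_le (p : Par) (hN : 0 < p.N) (m : ℕ) (ω : ℕ → Bool) (a b : ℕ) :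
    ‖ht p m ω a b‖ ≤ Hb p := by
  unfold ht Hb
  refine (norm_sum_le _ _).trans (Finset.sum_le_sum fun j _ => ?_)
  rw [norm_smul, Real.norm_eq_abs, Nat.abs_cast]
  exact mul_le_mul_of_nonneg_left (norm_vec_le p hN _ _) (by positivity)

lemma pt_sub_le_one (p : Par) (R : ℝ) (m m' : ℕ) (ω ω' : ℕ → Bool) (a b a' b' l : ℕ)
    (h : ∀ j, j ≠ l → st p m ω a b j = st p m' ω' a' b' j) :
    ‖pt p R m ω a b - pt p R m' ω' a' b'‖ ≤ |(a : ℝ) - a'| + |(b : ℝ) - b'|
      + p.w l * ‖vec p l (st p m ω a b l) - vec p l (st p m' ω' a' b' l)‖ := by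
  refine (pt_sub_le _ _ _ _ _ _ _ _ _ _ _ _).trans ?_
  rw [sub_self, abs_zero, add_zero]
  refine add_le_add le_rfl ((ht_sub_le _ _ _ _ _ _ _ _ _).trans ?_)
  by_cases hl : l ∈ range p.T
  · rw [Finset.sum_eq_single_of_mem l hl fun j _ hj => by rw [h j hj]; simp]
  · rw [Finset.sum_eq_zero fun j hj => by rw [h j (by rintro rfl; exact hl hj)]; simp]
    positivity

lemma sep (p : Par) (hN : 0 < p.N) (σ σ' : Option (Bool × ℕ)) (h : σ ≠ σ')
    (h1 : ∀ c d, σ = some (c, d) → d < p.N) (h2 : ∀ c d, σ' = some (c, d) → d < p.N) :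
    ∃ v, 1 / (10 * (p.N : ℝ)) ≤ |cv p v σ - cv p v σ'| := by
  have ht := theta_le p hN
  rcases σ with _ | ⟨c, d⟩ <;> rcases σ' with _ | ⟨c', d'⟩
  · exact absurd rfl h
  · have := (h2 c' d' rfl).ne
    exact ⟨d', by simpa [cv, this] using ht⟩
  · have := (h1 c d rfl).ne
    exact ⟨d, by simpa [cv, this] using ht⟩
  · have g1 := (h1 c d rfl).ne
    have g2 := (h2 c' d' rfl).ne
    by_cases hd : d = d'
    · subst hd
      refine ⟨p.N, ?_⟩
      have hc : c ≠ c' := by rintro rfl; exact h rfl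
      cases c <;> cases c' <;> simp_all [cv, th, g1.symm]
    · exact ⟨d, by simpa [cv, g1, hd] using ht⟩

lemma st_good (p : Par) (hN : 0 < p.N) (m : ℕ) (ω : ℕ → Bool) (a b j : ℕ) (c : Bool) (d : ℕ)
    (h : st p m ω a b j = some (c, d)) : d < p.N := by
  unfold st at h
  split_ifs at h
  simp only [Option.some.injEq, Prod.mk.injEq] at h
  rw [← h.2]; exact Nat.mod_lt _ hN

lemma st_eq_of_close (p : Par) (hN : 0 < p.N) (R : ℝ) (m m' : ℕ) (ω ω' : ℕ → Bool)
    (a b a' b' j : ℕ) (hj : j < p.T)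
    (h : ‖pt p R m ω a b - pt p R m' ω' a' b'‖ < 1 / (10 * (p.N : ℝ)) * p.w j) :
    st p m ω a b j = st p m' ω' a' b' j := by
  by_contra hne
  obtain ⟨v, hv⟩ := sep p hN _ _ hne (st_good p hN _ _ _ _ _) (st_good p hN _ _ _ _ _)
  have := coord_le (j + 1) v (pt p R m ω a b) (pt p R m' ω' a' b')
  rw [inner_pt_lev _ _ _ _ _ _ _ _ hj, inner_pt_lev _ _ _ _ _ _ _ _ hj, ← mul_sub, abs_mul,
    Nat.abs_cast] at this
  have h2 := mul_le_mul_of_nonneg_left hv (Nat.cast_nonneg (α := ℝ) (p.w j))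
  linarith

lemma run_congr (ω ω' : ℕ → Bool) (l : ℕ) (h : ∀ j < l, ω j = ω' j) : run ω l = run ω' l := by
  induction l with
  | zero => rfl
  | succ l ih => simp only [run]; rw [h l (by omega), ih fun j hj => h j (by omega)]

lemma st_upd_ne (p : Par) (m : ℕ) (ω : ℕ → Bool) (c : Bool) (a b j : ℕ) (hj : j ≠ m) :
    st p (m + 1) (Function.update ω m c) a b j = st p m ω a b j := by
  unfold st
  by_cases h : j < m
  · rw [if_pos h, if_pos (by omega)]
    unfold quo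
    rw [Function.update_of_ne hj, run_congr (Function.update ω m c) ω j
      fun i hi => Function.update_of_ne (by omega) _ _]
  · rw [if_neg h, if_neg (by omega)]

lemma run_upd (m : ℕ) (ω : ℕ → Bool) (c : Bool) : run (Function.update ω m c) m = run ω m :=
  run_congr _ _ _ fun i hi => Function.update_of_ne (by omega) _ _

lemma st_upd_true (p : Par) (m : ℕ) (ω : ℕ → Bool) (a b : ℕ) :
    st p (m + 1) (Function.update ω m true) a b m
      = some (true, a / (p.q (run ω m) * p.w m) % p.N) := by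
  simp [st, quo, run_upd]

lemma st_upd_false (p : Par) (m : ℕ) (ω : ℕ → Bool) (a b : ℕ) :
    st p (m + 1) (Function.update ω m false) a b m = some (false, b / p.w m % p.N) := by
  simp [st, quo]

lemma st_self (p : Par) (m : ℕ) (ω : ℕ → Bool) (a b : ℕ) : st p m ω a b m = none := by
  simp [st]

lemma div_eq_of_dvd (a a' d e : ℕ) (hd : d ∣ e) (h : a / d = a' / d) : a / e = a' / e := by
  obtain ⟨k, rfl⟩ := hd
  rw [← Nat.div_div_eq_div_mul, ← Nat.div_div_eq_div_mul, h]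

lemma st_block (p : Par) (m : ℕ) (hm : m ≤ p.T) (ω : ℕ → Bool) (a b a' b' j : ℕ)
    (ha : a / p.S m = a' / p.S m) (hb : b / p.S m = b' / p.S m) :
    st p m ω a b j = st p m ω a' b' j := by
  unfold st
  split_ifs with h
  · have hd : p.S m ∣ p.w j := pow_dvd_pow _ (by omega)
    unfold quo
    rw [div_eq_of_dvd a a' _ _ (hd.mul_left _) ha, div_eq_of_dvd b b' _ _ hd hb]
  · rfl

end Vale.Agent.P208
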