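import Mathlib

/-! Energies along one line. -/

namespace Vale.Agent.P208
open Finset

variable {V : Type*} [NormedAddCommGroup V] [InnerProductSpace ℝ V]

def inc (g : ℕ → V) (s t : ℕ) : V := g (t * s + (s - 1)) - g (t * s)

def LipJ (g : ℕ → V) (S : ℕ) (D J : ℝ) (r : ℕ) : Prop :=
  ∀ x y : ℕ, x ≤ y → x / S = y / S →
    ‖g y - g x‖ ≤ D * ((y : ℝ) - x) + J * (((y / r : ℕ) : ℝ) - ((x / r : ℕ) : ℝ))

lemma sum_range_mul {M : Type*} [AddCommMonoid M] (f : ℕ → M) (m n : ℕ) :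
    ∑ x ∈ range (m * n), f x = ∑ i ∈ range m, ∑ j ∈ range n, f (i * n + j) := by
  induction m with
  | zero => simp
  | succ m ih => rw [Nat.succ_mul, Finset.sum_range_add, ih, Finset.sum_range_succ]

lemma block_ineq (u : ℕ → V) (Δ : V) (n : ℕ) (hn : 0 < n) (e Λ : ℝ)
    (h1 : ‖∑ i ∈ range n, u i - Δ‖ ≤ e) (h2 : ‖Δ‖ ≤ Λ) :
    ∑ i ∈ range n, ‖u i - (n : ℝ)⁻¹ • Δ‖ ^ 2 + ‖Δ‖ ^ 2 / n - 2 * e * Λ / n
      ≤ ∑ i ∈ range n, ‖u i‖ ^ 2 := by
  have hn' : (0 : ℝ) < n := by exact_mod_cast hn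
  have e1 : ∑ i ∈ range n, ‖u i - (n : ℝ)⁻¹ • Δ‖ ^ 2
      = ∑ i ∈ range n, ‖u i‖ ^ 2 - 2 * ((n : ℝ)⁻¹ * inner ℝ (∑ i ∈ range n, u i) Δ)
        + ‖Δ‖ ^ 2 / n := by
    simp only [norm_sub_sq_real, Finset.sum_add_distrib, Finset.sum_sub_distrib, inner_smul_right,
      sum_inner, Finset.mul_sum, Finset.sum_const, card_range, nsmul_eq_mul, norm_smul,
      Real.norm_eq_abs, mul_pow, sq_abs]
    congr 1
    field_simp
  have e2 : inner ℝ (∑ i ∈ range n, u i) Δ = inner ℝ (∑ i ∈ range n, u i - Δ) Δ + ‖Δ‖ ^ 2 := by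
    rw [inner_sub_left, real_inner_self_eq_norm_sq]; ring
  have e3 : -(e * Λ) ≤ inner ℝ (∑ i ∈ range n, u i - Δ) Δ := by
    have := abs_real_inner_le_norm (∑ i ∈ range n, u i - Δ) Δ
    have h3 : ‖∑ i ∈ range n, u i - Δ‖ * ‖Δ‖ ≤ e * Λ :=
      mul_le_mul h1 h2 (norm_nonneg _) ((norm_nonneg _).trans h1)
    have := neg_abs_le (inner ℝ (∑ i ∈ range n, u i - Δ) Δ)
    linarith
  rw [e1, e2]
  have h4 : (n : ℝ)⁻¹ * (-(e * Λ)) ≤ (n : ℝ)⁻¹ * inner ℝ (∑ i ∈ range n, u i - Δ) Δ :=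
    mul_le_mul_of_nonneg_left e3 (by positivity)
  have h5 : ‖Δ‖ ^ 2 / n = (n : ℝ)⁻¹ * ‖Δ‖ ^ 2 := by ring
  have h6 : 2 * e * Λ / n = 2 * ((n : ℝ)⁻¹ * (e * Λ)) := by ring
  rw [h5, h6]
  nlinarith

omit [InnerProductSpace ℝ V] in
lemma tele (g : ℕ → V) (s : ℕ) (D J : ℝ) (hJ : 0 ≤ J) (φ : ℕ → ℝ) (hφ : Monotone φ) (t k : ℕ)
    (h : ∀ i < k, ‖g ((t + i + 1) * s) - g ((t + i) * s + (s - 1))‖
      ≤ D + J * (φ ((t + i + 1) * s) - φ ((t + i) * s + (s - 1)))) :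
    ‖g ((t + k) * s) - g (t * s) - ∑ i ∈ range k, inc g s (t + i)‖
      ≤ D * k + J * (φ ((t + k) * s) - φ (t * s)) := by
  induction k with
  | zero => simp
  | succ k ih =>
    have ih' := ih (fun i hi => h i (by omega))
    have hk := h k (by omega)
    have e : g ((t + (k + 1)) * s) - g (t * s) - ∑ i ∈ range (k + 1), inc g s (t + i)
        = (g ((t + k) * s) - g (t * s) - ∑ i ∈ range k, inc g s (t + i))
          + (g ((t + k + 1) * s) - g ((t + k) * s + (s - 1))) := by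
      rw [Finset.sum_range_succ, inc, add_assoc t k 1]; abel
    rw [e]
    refine (norm_add_le _ _).trans ?_
    have hm : φ ((t + k) * s) ≤ φ ((t + k) * s + (s - 1)) := hφ (by omega)
    have : J * φ ((t + k) * s) ≤ J * φ ((t + k) * s + (s - 1)) := mul_le_mul_of_nonneg_left hm hJ
    rw [← add_assoc t k 1]
    push_cast
    nlinarith

lemma div_block (t S x : ℕ) (hx : x < S) : (t * S + x) / S = t := by
  rw [add_comm, Nat.add_mul_div_right _ _ (by omega), Nat.div_eq_of_lt hx, zero_add]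

omit [InnerProductSpace ℝ V] in
lemma inc_le (g : ℕ → V) (S r : ℕ) (hS : 0 < S) (D : ℝ) (hD : 0 ≤ D) (hg : LipJ g S D 0 r) (t : ℕ) :
    ‖inc g S t‖ ≤ D * S := by
  have := hg (t * S) (t * S + (S - 1)) (by omega)
    (by rw [div_block t S (S - 1) (by omega), Nat.mul_div_cancel _ hS])
  rw [inc]
  refine this.trans ?_
  have h1 : ((S - 1 : ℕ) : ℝ) ≤ S := by exact_mod_cast Nat.sub_le S 1
  push_cast
  nlinarith

omit [InnerProductSpace ℝ V] in
/-- gaps inside one block -/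
lemma gap_le (g : ℕ → V) (s n r : ℕ) (hs : 0 < s) (D J : ℝ) (hg : LipJ g (n * s) D J r)
    (t0 u : ℕ) (hu : u + 1 < n) :
    ‖g ((t0 * n + u + 1) * s) - g ((t0 * n + u) * s + (s - 1))‖
      ≤ D + J * (((((t0 * n + u + 1) * s) / r : ℕ) : ℝ)
        - ((((t0 * n + u) * s + (s - 1)) / r : ℕ) : ℝ)) := by
  have e1 : (t0 * n + u + 1) * s = t0 * (n * s) + (u + 1) * s := by ring
  have e2 : (t0 * n + u) * s + (s - 1) = t0 * (n * s) + (u * s + (s - 1)) := by ring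
  have l1 : (u + 1) * s < n * s := Nat.mul_lt_mul_of_pos_right hu hs
  have l2 : (u + 1) * s = u * s + s := by ring
  have e3 : (t0 * n + u + 1) * s = (t0 * n + u) * s + (s - 1) + 1 := by
    rw [e1, e2]; omega
  have := hg ((t0 * n + u) * s + (s - 1)) ((t0 * n + u + 1) * s) (by omega)
    (by rw [e1, e2, div_block _ _ _ l1, div_block _ _ _ (by omega)])
  refine this.trans (le_of_eq ?_)
  congr 1
  rw [e3]; push_cast; ring

omit [InnerProductSpace ℝ V] in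
lemma block_line (g gp : ℕ → V) (s n r z : ℕ) (hs : 0 < s) (hn : 0 < n) (hr : 0 < r)
    (hz : n * s = z * r)
    (D J C : ℝ) (hD : 0 ≤ D) (hJ : 0 ≤ J)
    (hg : LipJ g (n * s) D J r) (hc : ∀ x, ‖g x - gp x‖ ≤ C) (t : ℕ) :
    ‖∑ i ∈ range n, inc g s (t * n + i) - inc gp (n * s) t‖ ≤ D * n + J * z + 2 * C := by
  obtain ⟨k, rfl⟩ : ∃ k, n = k + 1 := ⟨n - 1, by omega⟩
  have hφ : Monotone (fun x : ℕ => ((x / r : ℕ) : ℝ)) := fun x y h => by
    simp only; exact_mod_cast Nat.div_le_div_right h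
  have h1 := tele g s D J hJ _ hφ (t * (k + 1)) k
    (fun i hi => gap_le g s (k + 1) r hs D J hg t i (by omega))
  have e1 : (t * (k + 1) + k) * s + (s - 1) = t * ((k + 1) * s) + ((k + 1) * s - 1) := by
    have : (k + 1) * s = k * s + s := by ring
    have h2 : (t * (k + 1) + k) * s = t * ((k + 1) * s) + k * s := by ring
    omega
  have e2 : t * (k + 1) * s = t * ((k + 1) * s) := by ring
  have e : ∑ i ∈ range (k + 1), inc g s (t * (k + 1) + i) - inc gp ((k + 1) * s) t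
      = -(g ((t * (k + 1) + k) * s) - g (t * (k + 1) * s)
          - ∑ i ∈ range k, inc g s (t * (k + 1) + i))
        + (g (t * ((k + 1) * s) + ((k + 1) * s - 1)) - gp (t * ((k + 1) * s) + ((k + 1) * s - 1)))
        - (g (t * ((k + 1) * s)) - gp (t * ((k + 1) * s))) := by
    rw [Finset.sum_range_succ, inc, inc, e1, e2]; abel
  rw [e]
  refine (norm_sub_le _ _).trans ?_
  refine (add_le_add (norm_add_le _ _) le_rfl).trans ?_
  rw [norm_neg]
  have h2 := hc (t * ((k + 1) * s) + ((k + 1) * s - 1))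
  have h3 := hc (t * ((k + 1) * s))
  have h4 : (t * (k + 1) + k) * s / r ≤ t * z + z := by
    apply Nat.div_le_of_le_mul
    have : r * (t * z + z) = t * (z * r) + z * r := by ring
    rw [this, ← hz]; nlinarith
  have h5 : t * (k + 1) * s / r = t * z := by
    rw [e2, hz, ← mul_assoc, Nat.mul_div_cancel _ hr]
  simp only [h5] at h1
  have h6 : ((((t * (k + 1) + k) * s / r : ℕ)) : ℝ) ≤ ((t * z : ℕ) : ℝ) + z := by
    exact_mod_cast h4
  have h7 : J * (((((t * (k + 1) + k) * s / r : ℕ)) : ℝ) - ((t * z : ℕ) : ℝ)) ≤ J * z :=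
    mul_le_mul_of_nonneg_left (by linarith) hJ
  push_cast at h1 h7 ⊢
  nlinarith

noncomputable def En (g : ℕ → V) (s W : ℕ) : ℝ :=
  (∑ t ∈ range (W / s), ‖inc g s t‖ ^ 2) / (s * W)

noncomputable def dev (g gp : ℕ → V) (s n t : ℕ) : ℝ :=
  ‖inc g s t - (n : ℝ)⁻¹ • inc gp (n * s) (t / n)‖

noncomputable def Var (g gp : ℕ → V) (s n W : ℕ) : ℝ :=
  (∑ t ∈ range (W / s), dev g gp s n t ^ 2) / (s * W)

omit [InnerProductSpace ℝ V] in
lemma En_nonneg (g : ℕ → V) (s W : ℕ) : 0 ≤ En g s W := by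
  unfold En; positivity

lemma Var_nonneg (g gp : ℕ → V) (s n W : ℕ) : 0 ≤ Var g gp s n W := by
  unfold Var; positivity

omit [InnerProductSpace ℝ V] in
lemma En_le (g : ℕ → V) (S B r : ℕ) (hS : 0 < S) (hB : 0 < B) (D : ℝ) (hD : 0 ≤ D)
    (hg : LipJ g S D 0 r) : En g S (B * S) ≤ D ^ 2 := by
  unfold En
  rw [Nat.mul_div_cancel _ hS, div_le_iff₀ (by positivity)]
  calc ∑ t ∈ range B, ‖inc g S t‖ ^ 2 ≤ ∑ t ∈ range B, (D * S) ^ 2 :=
        Finset.sum_le_sum fun t _ =>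
          pow_le_pow_left₀ (norm_nonneg _) (inc_le g S r hS D hD hg t) 2
    _ = _ := by simp; ring

lemma line_ineq (g gp : ℕ → V) (s n r z B : ℕ) (hs : 0 < s) (hn : 0 < n) (hr : 0 < r) (hB : 0 < B)
    (hz : n * s = z * r)
    (D J C : ℝ) (hD : 0 ≤ D) (hJ : 0 ≤ J)
    (hg : LipJ g (n * s) D J r) (hp : LipJ gp (n * s) D 0 1) (hc : ∀ x, ‖g x - gp x‖ ≤ C) :
    En gp (n * s) (B * (n * s)) + Var g gp s n (B * (n * s))
      - 2 * D * (D / s + J / r + 2 * C / (n * s)) ≤ En g s (B * (n * s)) := by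
  have hns : 0 < n * s := Nat.mul_pos hn hs
  have hs' : (0 : ℝ) < s := by exact_mod_cast hs
  have hn' : (0 : ℝ) < n := by exact_mod_cast hn
  have hr' : (0 : ℝ) < r := by exact_mod_cast hr
  have hB' : (0 : ℝ) < B := by exact_mod_cast hB
  have hz' : (n : ℝ) * s = z * r := by exact_mod_cast hz
  have e1 : B * (n * s) / s = B * n := by rw [← mul_assoc, Nat.mul_div_cancel _ hs]
  have key : ∀ t ∈ range B, ∑ i ∈ range n, dev g gp s n (t * n + i) ^ 2
      + ‖inc gp (n * s) t‖ ^ 2 / n - 2 * (D * n + J * z + 2 * C) * (D * (n * s : ℕ)) / n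
      ≤ ∑ i ∈ range n, ‖inc g s (t * n + i)‖ ^ 2 := by
    intro t _
    have := block_ineq (fun i => inc g s (t * n + i)) (inc gp (n * s) t) n hn _ _
      (block_line g gp s n r z hs hn hr hz D J C hD hJ hg hc t) (inc_le gp (n * s) 1 hns D hD hp t)
    refine le_trans (le_of_eq ?_) this
    congr 2
    refine Finset.sum_congr rfl fun i hi => ?_
    rw [dev, div_block _ _ _ (mem_range.1 hi)]
  have hsum := Finset.sum_le_sum key
  simp only [Finset.sum_sub_distrib, Finset.sum_add_distrib, Finset.sum_const, card_range,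
    nsmul_eq_mul, ← Finset.sum_div] at hsum
  unfold En Var
  rw [e1, Nat.mul_div_cancel _ hns, sum_range_mul, sum_range_mul]
  push_cast at hsum ⊢
  rw [le_div_iff₀ (by positivity)]
  refine le_trans (le_of_eq ?_) hsum
  have hzz : (z : ℝ) = n * s / r := by rw [hz']; field_simp
  rw [hzz]
  field_simp
  ring

end Vale.Agent.P208
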